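import Mathlib

/-!
# A lower bound on the mixing time of a reversible continuous-time chain on a finite set

If the generator matrix `A` is self-adjoint for the weighted inner product, kills constants and
`A + c` is positive semidefinite, then a time `t` at which every row of `exp (t A)` is within total
variation `1/4` of the stationary law satisfies `t * E(f) ≥ log 2 * ‖f‖^2` for every mean-zero `f`.
-/

namespace Vale.Agent.Lib.P150

open Finset

section Seq

/-- A nonnegative log-convex sequence with positive first term dominates the geometric sequence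
with ratio `a 1 / a 0`. -/
lemma logconvex_lower (a : ℕ → ℝ) (h0 : 0 < a 0) (hnn : ∀ k, 0 ≤ a k)
    (hlc : ∀ k, a (k + 1) ^ 2 ≤ a k * a (k + 2)) (k : ℕ) :
    a 0 * (a 1 / a 0) ^ k ≤ a k := by
  rcases (hnn 1).eq_or_lt with h1 | h1
  · rw [← h1]
    cases k with
    | zero => simp
    | succ k => simp [hnn (k + 1)]
  · have key : ∀ k, 0 < a k ∧ a 1 * a k ≤ a (k + 1) * a 0 := by
      intro k
      induction k with
      | zero => exact ⟨h0, by simp [mul_comm]⟩
      | succ k ih =>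
        obtain ⟨hk, hk1⟩ := ih
        have hk1pos : 0 < a (k + 1) := by
          by_contra hcon
          have h0' : a (k + 1) = 0 := le_antisymm (not_lt.1 hcon) (hnn _)
          rw [h0'] at hk1
          nlinarith
        refine ⟨hk1pos, ?_⟩
        have h2 := hlc k
        have h3 : a 1 * a (k + 1) * a k ≤ a (k + 1 + 1) * a 0 * a k := by
          have e1 := mul_le_mul_of_nonneg_left hk1 hk1pos.le
          have e2 := mul_le_mul_of_nonneg_right h2 h0.le
          nlinarith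
        exact le_of_mul_le_mul_right h3 hk
    induction k with
    | zero => simp
    | succ k ih =>
      obtain ⟨hk, hk1⟩ := key k
      have hρ : 0 ≤ a 1 / a 0 := div_nonneg h1.le h0.le
      rw [pow_succ, ← mul_assoc]
      calc a 0 * (a 1 / a 0) ^ k * (a 1 / a 0) ≤ a k * (a 1 / a 0) :=
            mul_le_mul_of_nonneg_right ih hρ
        _ ≤ a (k + 1) := by
            rw [mul_div_assoc', div_le_iff₀ h0]
            linarith [mul_comm (a k) (a 1)]

end Seq

section Form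

open scoped Matrix

set_option linter.unusedSectionVars false

variable {Ω : Type*} [Fintype Ω] [DecidableEq Ω]

/-- The `μ`-weighted inner product `∑ x, μ x * u x * v x`. -/
def ip (μ : Ω → ℝ) (u v : Ω → ℝ) : ℝ := ∑ x, μ x * u x * v x

lemma ip_comm (μ u v : Ω → ℝ) : ip μ u v = ip μ v u := by
  unfold ip
  exact Finset.sum_congr rfl (fun x _ => by ring)

lemma ip_add_left (μ u u' v : Ω → ℝ) : ip μ (u + u') v = ip μ u v + ip μ u' v := by
  unfold ip
  rw [← Finset.sum_add_distrib]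
  exact Finset.sum_congr rfl (fun x _ => by simp only [Pi.add_apply]; ring)

lemma ip_add_right (μ u v v' : Ω → ℝ) : ip μ u (v + v') = ip μ u v + ip μ u v' := by
  rw [ip_comm, ip_add_left, ip_comm μ v u, ip_comm μ v' u]

lemma ip_smul_left (μ u v : Ω → ℝ) (s : ℝ) : ip μ (s • u) v = s * ip μ u v := by
  unfold ip
  rw [Finset.mul_sum]
  exact Finset.sum_congr rfl (fun x _ => by simp only [Pi.smul_apply, smul_eq_mul]; ring)

lemma ip_smul_right (μ u v : Ω → ℝ) (s : ℝ) : ip μ u (s • v) = s * ip μ u v := by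
  rw [ip_comm, ip_smul_left, ip_comm]

lemma ip_self_nonneg (μ : Ω → ℝ) (hμ : ∀ x, 0 ≤ μ x) (u : Ω → ℝ) : 0 ≤ ip μ u u := by
  unfold ip
  exact Finset.sum_nonneg (fun x _ => by
    have := mul_nonneg (hμ x) (mul_self_nonneg (u x))
    linarith [mul_assoc (μ x) (u x) (u x)])

/-- Self-adjointness of a matrix for the weighted inner product. -/
def SelfAdj (μ : Ω → ℝ) (M : Matrix Ω Ω ℝ) : Prop :=
  ∀ u v : Ω → ℝ, ip μ u (M *ᵥ v) = ip μ (M *ᵥ u) v

lemma selfAdj_one (μ : Ω → ℝ) : SelfAdj μ (1 : Matrix Ω Ω ℝ) := by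
  intro u v
  simp

lemma SelfAdj.smul {μ : Ω → ℝ} {M : Matrix Ω Ω ℝ} (h : SelfAdj μ M) (s : ℝ) :
    SelfAdj μ (s • M) := by
  intro u v
  rw [Matrix.smul_mulVec, Matrix.smul_mulVec, ip_smul_right, ip_smul_left, h u v]

lemma SelfAdj.add {μ : Ω → ℝ} {M N : Matrix Ω Ω ℝ} (h : SelfAdj μ M) (h' : SelfAdj μ N) :
    SelfAdj μ (M + N) := by
  intro u v
  rw [Matrix.add_mulVec, Matrix.add_mulVec, ip_add_right, ip_add_left, h u v, h' u v]

lemma SelfAdj.mul_comm' {μ : Ω → ℝ} {M N : Matrix Ω Ω ℝ} (h : SelfAdj μ M) (h' : SelfAdj μ N)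
    (u v : Ω → ℝ) : ip μ u ((M * N) *ᵥ v) = ip μ ((N * M) *ᵥ u) v := by
  rw [← Matrix.mulVec_mulVec, ← Matrix.mulVec_mulVec, h u, h' (M *ᵥ u)]

lemma SelfAdj.pow {μ : Ω → ℝ} {M : Matrix Ω Ω ℝ} (h : SelfAdj μ M) (k : ℕ) :
    SelfAdj μ (M ^ k) := by
  induction k with
  | zero => simpa using selfAdj_one μ
  | succ k ih =>
    intro u v
    have e1 : M ^ (k + 1) = M ^ k * M := pow_succ _ _
    have e2 : M ^ (k + 1) = M * M ^ k := pow_succ' _ _
    calc ip μ u ((M ^ (k + 1)) *ᵥ v) = ip μ u ((M ^ k * M) *ᵥ v) := by rw [e1]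
      _ = ip μ ((M * M ^ k) *ᵥ u) v := SelfAdj.mul_comm' ih h u v
      _ = ip μ ((M ^ (k + 1)) *ᵥ u) v := by rw [e2]

/-- Cauchy-Schwarz for a positive semidefinite self-adjoint form. -/
lemma cs_form {μ : Ω → ℝ} {M : Matrix Ω Ω ℝ} (hM : SelfAdj μ M)
    (hpsd : ∀ u : Ω → ℝ, 0 ≤ ip μ u (M *ᵥ u)) (u v : Ω → ℝ) :
    ip μ u (M *ᵥ v) ^ 2 ≤ ip μ u (M *ᵥ u) * ip μ v (M *ᵥ v) := by
  have hquad : ∀ s : ℝ, 0 ≤ ip μ v (M *ᵥ v) * (s * s) + 2 * ip μ u (M *ᵥ v) * s +
      ip μ u (M *ᵥ u) := by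
    intro s
    have h0 := hpsd (u + s • v)
    have hvu : ip μ v (M *ᵥ u) = ip μ u (M *ᵥ v) := by
      rw [hM v u, ip_comm]
    have e : ip μ (u + s • v) (M *ᵥ (u + s • v)) = ip μ v (M *ᵥ v) * (s * s) +
        2 * ip μ u (M *ᵥ v) * s + ip μ u (M *ᵥ u) := by
      rw [Matrix.mulVec_add, Matrix.mulVec_smul, ip_add_left, ip_add_right, ip_add_right,
        ip_smul_left, ip_smul_left, ip_smul_right, ip_smul_right, hvu]
      ring
    rw [e] at h0
    exact h0
  have hd := discrim_le_zero hquad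
  unfold discrim at hd
  nlinarith

/-- The moments `⟨f, B^k f⟩`. -/
def moment (μ : Ω → ℝ) (B : Matrix Ω Ω ℝ) (f : Ω → ℝ) (k : ℕ) : ℝ := ip μ f ((B ^ k) *ᵥ f)

lemma moment_split {μ : Ω → ℝ} {B : Matrix Ω Ω ℝ} (hB : SelfAdj μ B) (f : Ω → ℝ) (i j e : ℕ) :
    moment μ B f (i + j + e) = ip μ ((B ^ i) *ᵥ f) ((B ^ e) *ᵥ ((B ^ j) *ᵥ f)) := by
  unfold moment
  have h1 : B ^ (i + j + e) = B ^ i * (B ^ e * B ^ j) := by
    rw [← pow_add, ← pow_add]
    congr 1
    ring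
  rw [h1, ← Matrix.mulVec_mulVec, ← Matrix.mulVec_mulVec, (hB.pow i) f]

lemma moment_nonneg {μ : Ω → ℝ} (hμ : ∀ x, 0 ≤ μ x) {B : Matrix Ω Ω ℝ} (hB : SelfAdj μ B)
    (hpsd : ∀ u : Ω → ℝ, 0 ≤ ip μ u (B *ᵥ u)) (f : Ω → ℝ) (k : ℕ) : 0 ≤ moment μ B f k := by
  obtain ⟨i, rfl | rfl⟩ := Nat.even_or_odd' k
  · have h : 2 * i = i + i + 0 := by ring
    rw [h, moment_split hB, pow_zero, Matrix.one_mulVec]
    exact ip_self_nonneg μ hμ _
  · have h : 2 * i + 1 = i + i + 1 := by ring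
    rw [h, moment_split hB, pow_one]
    exact hpsd _

lemma moment_logconvex {μ : Ω → ℝ} (hμ : ∀ x, 0 ≤ μ x) {B : Matrix Ω Ω ℝ} (hB : SelfAdj μ B)
    (hpsd : ∀ u : Ω → ℝ, 0 ≤ ip μ u (B *ᵥ u)) (f : Ω → ℝ) (k : ℕ) :
    moment μ B f (k + 1) ^ 2 ≤ moment μ B f k * moment μ B f (k + 2) := by
  have hpsd' : ∀ e : ℕ, e < 2 → ∀ u : Ω → ℝ, 0 ≤ ip μ u ((B ^ e) *ᵥ u) := by
    intro e he u
    interval_cases e
    · rw [pow_zero, Matrix.one_mulVec]
      exact ip_self_nonneg μ hμ u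
    · rw [pow_one]
      exact hpsd u
  have main : ∀ i e : ℕ, e < 2 →
      moment μ B f (i + (i + 1) + e) ^ 2 ≤
        moment μ B f (i + i + e) * moment μ B f ((i + 1) + (i + 1) + e) := by
    intro i e he
    rw [moment_split hB, moment_split hB, moment_split hB]
    exact cs_form (hB.pow e) (hpsd' e he) _ _
  obtain ⟨i, rfl | rfl⟩ := Nat.even_or_odd' k
  · have h := main i 0 (by norm_num)
    have e1 : 2 * i + 1 = i + (i + 1) + 0 := by ring
    have e2 : 2 * i = i + i + 0 := by ring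
    have e3 : 2 * i + 2 = (i + 1) + (i + 1) + 0 := by ring
    rw [e1, e3]
    rw [e2] at *
    exact h
  · have h := main i 1 (by norm_num)
    have e1 : 2 * i + 1 + 1 = i + (i + 1) + 1 := by ring
    have e2 : 2 * i + 1 = i + i + 1 := by ring
    have e3 : 2 * i + 1 + 2 = (i + 1) + (i + 1) + 1 := by ring
    rw [e1, e3, e2]
    exact h

end Form

end Vale.Agent.Lib.P150
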