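import Vale.Agent.Lib.P150.Chain

namespace Vale.Agent.Lib.P150

open Finset NormedSpace

section Exp

open scoped Matrix

variable {Ω : Type*} [Fintype Ω] [DecidableEq Ω]

/-- The linear functional `N ↦ ⟨u, N v⟩` on matrices. -/
def ipLin (μ u v : Ω → ℝ) : Matrix Ω Ω ℝ →ₗ[ℝ] ℝ where
  toFun N := ip μ u (N *ᵥ v)
  map_add' N N' := by rw [Matrix.add_mulVec, ip_add_right]
  map_smul' s N := by
    rw [Matrix.smul_mulVec, ip_smul_right]
    rfl

/-- The linear map `N ↦ N v` on matrices. -/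
def mulVecLinLeft (v : Ω → ℝ) : Matrix Ω Ω ℝ →ₗ[ℝ] (Ω → ℝ) where
  toFun N := N *ᵥ v
  map_add' _ _ := Matrix.add_mulVec _ _ _
  map_smul' _ _ := Matrix.smul_mulVec _ _ _

lemma hasSum_map_exp {𝔸 E : Type*} [NormedRing 𝔸] [NormedAlgebra ℝ 𝔸] [CompleteSpace 𝔸]
    [NormedAddCommGroup E] [NormedSpace ℝ E] (φ : 𝔸 →L[ℝ] E) (x : 𝔸) :
    HasSum (fun k : ℕ => ((k.factorial : ℝ)⁻¹) • φ (x ^ k)) (φ (exp x)) := by
  have h := φ.hasSum (exp_series_hasSum_exp' (𝕂 := ℝ) x)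
  simpa using h

set_option backward.isDefEq.respectTransparency false in
lemma hasSum_ip_exp (μ u v : Ω → ℝ) (M : Matrix Ω Ω ℝ) :
    HasSum (fun k : ℕ => ((k.factorial : ℝ)⁻¹) * ip μ u ((M ^ k) *ᵥ v))
      (ip μ u ((exp M) *ᵥ v)) :=
  open scoped Matrix.Norms.Operator in
  hasSum_map_exp (LinearMap.toContinuousLinearMap (ipLin μ u v)) M

set_option backward.isDefEq.respectTransparency false in
lemma hasSum_mulVec_exp (v : Ω → ℝ) (M : Matrix Ω Ω ℝ) :
    HasSum (fun k : ℕ => ((k.factorial : ℝ)⁻¹) • ((M ^ k) *ᵥ v)) ((exp M) *ᵥ v) :=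
  open scoped Matrix.Norms.Operator in
  hasSum_map_exp (LinearMap.toContinuousLinearMap (mulVecLinLeft v)) M

lemma pow_mulVec_eq_zero (A : Matrix Ω Ω ℝ) (v : Ω → ℝ) (hv : A *ᵥ v = 0) (k : ℕ) :
    (A ^ (k + 1)) *ᵥ v = 0 := by
  rw [pow_succ, ← Matrix.mulVec_mulVec, hv, Matrix.mulVec_zero]

/-- A vector killed by `A` is fixed by `exp A`. -/
lemma exp_mulVec_of_mulVec_eq_zero (A : Matrix Ω Ω ℝ) (v : Ω → ℝ) (hv : A *ᵥ v = 0) :
    (exp A) *ᵥ v = v := by
  have h := hasSum_mulVec_exp v A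
  have h2 : HasSum (fun k : ℕ => ((k.factorial : ℝ)⁻¹) • ((A ^ k) *ᵥ v))
      (((Nat.factorial 0 : ℝ)⁻¹) • ((A ^ 0) *ᵥ v)) := by
    refine hasSum_single 0 (fun k hk => ?_)
    obtain ⟨j, rfl⟩ := Nat.exists_eq_succ_of_ne_zero hk
    rw [pow_mulVec_eq_zero A v hv, smul_zero]
  have h3 := h.unique h2
  simpa using h3

lemma SelfAdj.exp {μ : Ω → ℝ} {M : Matrix Ω Ω ℝ} (h : SelfAdj μ M) : SelfAdj μ (exp M) := by
  intro u v
  have h1 := hasSum_ip_exp μ u v M
  have h2 := hasSum_ip_exp μ v u M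
  have h3 : (fun k : ℕ => ((k.factorial : ℝ)⁻¹) * ip μ u ((M ^ k) *ᵥ v)) =
      fun k : ℕ => ((k.factorial : ℝ)⁻¹) * ip μ v ((M ^ k) *ᵥ u) := by
    funext k
    rw [(h.pow k) u v, ip_comm]
  rw [h3] at h1
  rw [h1.unique h2, ip_comm]

set_option backward.isDefEq.respectTransparency false in
/-- Splitting off a multiple of the identity in the exponent. -/
lemma exp_smul_sub (B : Matrix Ω Ω ℝ) (c t : ℝ) :
    exp (t • (B - c • (1 : Matrix Ω Ω ℝ))) = Real.exp (-(t * c)) • exp (t • B) := by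
  have e1 : t • (B - c • (1 : Matrix Ω Ω ℝ)) = t • B + (-(t * c)) • (1 : Matrix Ω Ω ℝ) := by
    rw [smul_sub, smul_smul, neg_smul, sub_eq_add_neg]
  have hcomm : Commute (t • B) ((-(t * c)) • (1 : Matrix Ω Ω ℝ)) :=
    (Commute.one_right _).smul_right _
  rw [e1, Matrix.exp_add_of_commute _ _ hcomm]
  have e2 : exp ((-(t * c)) • (1 : Matrix Ω Ω ℝ)) = Real.exp (-(t * c)) • (1 : Matrix Ω Ω ℝ) := by
    rw [Matrix.smul_one_eq_diagonal, Matrix.exp_diagonal, Matrix.smul_one_eq_diagonal]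
    congr 1
    funext i
    rw [Pi.coe_exp, Real.exp_eq_exp_ℝ]
  rw [e2, mul_smul_comm, mul_one]

/-- Lower bound for `⟨f, exp (s B) f⟩` when `B` is self-adjoint and positive semidefinite. -/
lemma ip_exp_lower {μ : Ω → ℝ} (hμ : ∀ x, 0 ≤ μ x) {B : Matrix Ω Ω ℝ} (hB : SelfAdj μ B)
    (hpsd : ∀ u : Ω → ℝ, 0 ≤ ip μ u (B *ᵥ u)) (f : Ω → ℝ) (h0 : 0 < ip μ f f)
    (s : ℝ) (hs : 0 ≤ s) :
    ip μ f f * Real.exp (s * (ip μ f (B *ᵥ f) / ip μ f f)) ≤ ip μ f ((exp (s • B)) *ᵥ f) := by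
  have h1 := hasSum_ip_exp μ f f (s • B)
  have hterm : ∀ k : ℕ, ((k.factorial : ℝ)⁻¹) * ip μ f (((s • B) ^ k) *ᵥ f) =
      ((k.factorial : ℝ)⁻¹) * (s ^ k * moment μ B f k) := by
    intro k
    rw [smul_pow, Matrix.smul_mulVec, ip_smul_right]
    rfl
  have h2 : HasSum (fun k : ℕ => ip μ f f *
      ((s * (ip μ f (B *ᵥ f) / ip μ f f)) ^ k / (k.factorial : ℝ)))
      (ip μ f f * Real.exp (s * (ip μ f (B *ᵥ f) / ip μ f f))) := by
    have h3 := NormedSpace.expSeries_div_hasSum_exp (𝔸 := ℝ) (s * (ip μ f (B *ᵥ f) / ip μ f f))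
    rw [← Real.exp_eq_exp_ℝ] at h3
    exact h3.mul_left _
  refine hasSum_le (fun k => ?_) h2 h1
  rw [hterm]
  have hm0 : moment μ B f 0 = ip μ f f := by simp [moment]
  have hm1 : moment μ B f 1 = ip μ f (B *ᵥ f) := by simp [moment]
  have hm := logconvex_lower (moment μ B f) (by rw [hm0]; exact h0)
    (moment_nonneg hμ hB hpsd f) (moment_logconvex hμ hB hpsd f) k
  rw [hm0, hm1] at hm
  have hk : (0 : ℝ) < (k.factorial : ℝ) := by exact_mod_cast Nat.factorial_pos k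
  have hsk : (0 : ℝ) ≤ s ^ k := pow_nonneg hs k
  calc ip μ f f * ((s * (ip μ f (B *ᵥ f) / ip μ f f)) ^ k / (k.factorial : ℝ))
      = ((k.factorial : ℝ)⁻¹) * (s ^ k * (ip μ f f * (ip μ f (B *ᵥ f) / ip μ f f) ^ k)) := by
        rw [mul_pow]
        field_simp
    _ ≤ ((k.factorial : ℝ)⁻¹) * (s ^ k * moment μ B f k) :=
        mul_le_mul_of_nonneg_left (mul_le_mul_of_nonneg_left hm hsk) (inv_pos.2 hk).le

end Exp

section Mixing

open scoped Matrix

set_option linter.unusedSectionVars false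

variable {Ω : Type*} [Fintype Ω] [DecidableEq Ω]

/-- If every row of `P` is within `1/2` (in `ℓ^1`) of `μ`, then `P` halves oscillations. -/
lemma osc_contract {μ : Ω → ℝ} (P : Matrix Ω Ω ℝ) (hP1 : P *ᵥ 1 = 1)
    (hmix : ∀ x, ∑ y, |P x y - μ y| ≤ 1 / 2) (g : Ω → ℝ) (ω : ℝ)
    (hg : ∀ x y, g x - g y ≤ ω) : ∀ x y, (P *ᵥ g) x - (P *ᵥ g) y ≤ ω / 2 := by
  intro x y
  obtain ⟨zM, -, hM⟩ := Finset.exists_max_image Finset.univ g ⟨x, Finset.mem_univ x⟩
  obtain ⟨zm, -, hm⟩ := Finset.exists_min_image Finset.univ g ⟨x, Finset.mem_univ x⟩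
  have hω : g zM - g zm ≤ ω := hg zM zm
  have habs : ∀ z, |g z - (g zM + g zm) / 2| ≤ ω / 2 := by
    intro z
    have h1 := hM z (Finset.mem_univ z)
    have h2 := hm z (Finset.mem_univ z)
    rw [abs_le]
    constructor <;> linarith
  have hrow : ∀ x, ∑ z, P x z = 1 := by
    intro x
    have := congrFun hP1 x
    simpa [Matrix.mulVec, dotProduct] using this
  have e : (P *ᵥ g) x - (P *ᵥ g) y = ∑ z, (P x z - P y z) * (g z - (g zM + g zm) / 2) := by
    simp only [Matrix.mulVec, dotProduct]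
    have h3 : ∑ z, (P x z - P y z) * (g z - (g zM + g zm) / 2) =
        (∑ z, P x z * g z - ∑ z, P y z * g z) -
          (g zM + g zm) / 2 * (∑ z, P x z - ∑ z, P y z) := by
      rw [← Finset.sum_sub_distrib, ← Finset.sum_sub_distrib, Finset.mul_sum,
        ← Finset.sum_sub_distrib]
      exact Finset.sum_congr rfl (fun z _ => by ring)
    rw [h3, hrow x, hrow y]
    ring
  rw [e]
  have hω0 : 0 ≤ ω / 2 := by
    have := hg x x
    simp only [sub_self] at this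
    linarith
  calc ∑ z, (P x z - P y z) * (g z - (g zM + g zm) / 2)
      ≤ ∑ z, |P x z - P y z| * (ω / 2) := by
        refine Finset.sum_le_sum (fun z _ => ?_)
        calc (P x z - P y z) * (g z - (g zM + g zm) / 2)
            ≤ |(P x z - P y z) * (g z - (g zM + g zm) / 2)| := le_abs_self _
          _ = |P x z - P y z| * |g z - (g zM + g zm) / 2| := abs_mul _ _
          _ ≤ |P x z - P y z| * (ω / 2) := mul_le_mul_of_nonneg_left (habs z) (abs_nonneg _)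
    _ = (∑ z, |P x z - P y z|) * (ω / 2) := by rw [Finset.sum_mul]
    _ ≤ 1 * (ω / 2) := by
        refine mul_le_mul_of_nonneg_right ?_ hω0
        calc ∑ z, |P x z - P y z| ≤ ∑ z, (|P x z - μ z| + |P y z - μ z|) := by
              refine Finset.sum_le_sum (fun z _ => ?_)
              have h4 : P x z - P y z = (P x z - μ z) - (P y z - μ z) := by ring
              rw [h4]
              exact abs_sub _ _
          _ = ∑ z, |P x z - μ z| + ∑ z, |P y z - μ z| := Finset.sum_add_distrib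
          _ ≤ 1 := by linarith [hmix x, hmix y]
    _ = ω / 2 := one_mul _

lemma osc_contract_pow {μ : Ω → ℝ} (P : Matrix Ω Ω ℝ) (hP1 : P *ᵥ 1 = 1)
    (hmix : ∀ x, ∑ y, |P x y - μ y| ≤ 1 / 2) (g : Ω → ℝ) (ω : ℝ)
    (hg : ∀ x y, g x - g y ≤ ω) (j : ℕ) :
    ∀ x y, ((P ^ j) *ᵥ g) x - ((P ^ j) *ᵥ g) y ≤ ω / 2 ^ j := by
  induction j with
  | zero => simpa using hg
  | succ j ih =>
    intro x y
    have h := osc_contract (μ := μ) P hP1 hmix ((P ^ j) *ᵥ g) (ω / 2 ^ j) ih x y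
    rw [Matrix.mulVec_mulVec, ← pow_succ'] at h
    have e : ω / 2 ^ (j + 1) = ω / 2 ^ j / 2 := by rw [pow_succ, div_div]
    rw [e]
    exact h

lemma abs_le_of_mean_zero {μ : Ω → ℝ} (hμ : ∀ x, 0 ≤ μ x) (hμ1 : ∑ x, μ x = 1) (h : Ω → ℝ)
    (ω : ℝ) (hmean : ip μ 1 h = 0) (hosc : ∀ x y, h x - h y ≤ ω) (x : Ω) : |h x| ≤ ω := by
  have hsum : ∑ y, μ y * h y = 0 := by simpa [ip] using hmean
  have e1 : h x = ∑ y, μ y * (h x - h y) := by
    simp_rw [mul_sub]
    rw [Finset.sum_sub_distrib, ← Finset.sum_mul, hμ1, hsum]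
    ring
  have e2 : -h x = ∑ y, μ y * (h y - h x) := by
    simp_rw [mul_sub]
    rw [Finset.sum_sub_distrib, ← Finset.sum_mul, hμ1, hsum]
    ring
  rw [abs_le]
  constructor
  · have h3 : ∑ y, μ y * (h y - h x) ≤ ∑ y, μ y * ω :=
      Finset.sum_le_sum (fun y _ => mul_le_mul_of_nonneg_left (hosc y x) (hμ y))
    rw [← Finset.sum_mul, hμ1] at h3
    linarith
  · have h3 : ∑ y, μ y * (h x - h y) ≤ ∑ y, μ y * ω :=
      Finset.sum_le_sum (fun y _ => mul_le_mul_of_nonneg_left (hosc x y) (hμ y))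
    rw [← Finset.sum_mul, hμ1] at h3
    linarith

/-- **Abstract mixing lower bound.** -/
theorem chain_mixing_lower (μ : Ω → ℝ) (hμ : ∀ x, 0 < μ x) (hμ1 : ∑ x, μ x = 1)
    (A : Matrix Ω Ω ℝ) (c : ℝ) (hA : SelfAdj μ A) (h1 : A *ᵥ 1 = 0)
    (hpsd : ∀ u : Ω → ℝ, 0 ≤ ip μ u ((A + c • (1 : Matrix Ω Ω ℝ)) *ᵥ u))
    (t : ℝ) (ht : 0 ≤ t)
    (hmix : ∀ x, ∑ y, |NormedSpace.exp (t • A) x y - μ y| ≤ 1 / 2)
    (f : Ω → ℝ) (hf : ip μ 1 f = 0) :
    Real.log 2 * ip μ f f ≤ t * (-(ip μ f (A *ᵥ f))) := by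
  have hμ0 : ∀ x, 0 ≤ μ x := fun x => (hμ x).le
  rcases (ip_self_nonneg μ hμ0 f).eq_or_lt with h0 | h0
  · have hfz : f = 0 := by
      funext x
      have hnn : ∀ y ∈ Finset.univ, 0 ≤ μ y * f y * f y := fun y _ => by
        have := mul_nonneg (hμ0 y) (mul_self_nonneg (f y))
        linarith [mul_assoc (μ y) (f y) (f y)]
      have hx := (Finset.sum_eq_zero_iff_of_nonneg hnn).1 h0.symm x (Finset.mem_univ x)
      have hx2 : f x * f x = 0 := by
        rcases mul_eq_zero.1 (by rw [mul_assoc] at hx; exact hx) with h | h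
        · exact absurd h (hμ x).ne'
        · exact h
      simpa using mul_self_eq_zero.1 hx2
    rw [hfz]
    simp [ip]
  have hB : SelfAdj μ (A + c • (1 : Matrix Ω Ω ℝ)) := hA.add ((selfAdj_one μ).smul c)
  have hAB : A = (A + c • (1 : Matrix Ω Ω ℝ)) - c • (1 : Matrix Ω Ω ℝ) := by
    rw [add_sub_cancel_right]
  have hPsa : SelfAdj μ (NormedSpace.exp (t • A)) := (hA.smul t).exp
  have hP1 : (NormedSpace.exp (t • A)) *ᵥ (1 : Ω → ℝ) = 1 :=
    exp_mulVec_of_mulVec_eq_zero (t • A) 1 (by rw [Matrix.smul_mulVec, h1, smul_zero])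
  have hEa : -(ip μ f (A *ᵥ f)) =
      c * ip μ f f - ip μ f ((A + c • (1 : Matrix Ω Ω ℝ)) *ᵥ f) := by
    rw [Matrix.add_mulVec, Matrix.smul_mulVec, Matrix.one_mulVec, ip_add_right, ip_smul_right]
    ring
  -- lower bound for every power
  have hLB : ∀ j : ℕ, ip μ f f * Real.exp (-((j : ℝ) * t) * (-(ip μ f (A *ᵥ f)) / ip μ f f)) ≤
      ip μ f (((NormedSpace.exp (t • A)) ^ j) *ᵥ f) := by
    intro j
    have hpow : (NormedSpace.exp (t • A)) ^ j = NormedSpace.exp (((j : ℝ) * t) • A) := by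
      rw [← Matrix.exp_nsmul, ← Nat.cast_smul_eq_nsmul ℝ, smul_smul]
    have hlb := ip_exp_lower hμ0 hB hpsd f h0 ((j : ℝ) * t) (by positivity)
    rw [hpow]
    conv_rhs => rw [hAB, exp_smul_sub, Matrix.smul_mulVec, ip_smul_right]
    calc ip μ f f * Real.exp (-((j : ℝ) * t) * (-(ip μ f (A *ᵥ f)) / ip μ f f))
        = Real.exp (-((j : ℝ) * t * c)) * (ip μ f f * Real.exp ((j : ℝ) * t *
            (ip μ f ((A + c • (1 : Matrix Ω Ω ℝ)) *ᵥ f) / ip μ f f))) := by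
          rw [hEa, mul_left_comm, ← Real.exp_add]
          congr 2
          field_simp
          ring
      _ ≤ Real.exp (-((j : ℝ) * t * c)) *
            ip μ f ((NormedSpace.exp (((j : ℝ) * t) • (A + c • (1 : Matrix Ω Ω ℝ)))) *ᵥ f) :=
          mul_le_mul_of_nonneg_left hlb (Real.exp_pos _).le
  -- upper bound for every power
  obtain ⟨C, hC⟩ : ∃ C : ℝ, ∀ j : ℕ,
      ip μ f (((NormedSpace.exp (t • A)) ^ j) *ᵥ f) ≤ C / 2 ^ j := by
    have hosc : ∀ x y, f x - f y ≤ 2 * ∑ z, |f z| := by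
      intro x y
      have hx : |f x| ≤ ∑ z, |f z| := Finset.single_le_sum (f := fun z => |f z|)
        (fun z _ => abs_nonneg _) (Finset.mem_univ x)
      have hy : |f y| ≤ ∑ z, |f z| := Finset.single_le_sum (f := fun z => |f z|)
        (fun z _ => abs_nonneg _) (Finset.mem_univ y)
      have h3 := le_abs_self (f x)
      have h4 := neg_abs_le (f y)
      linarith
    have hone : ∀ j : ℕ, ((NormedSpace.exp (t • A)) ^ j) *ᵥ (1 : Ω → ℝ) = 1 := by
      intro j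
      induction j with
      | zero => simp
      | succ j ih => rw [pow_succ, ← Matrix.mulVec_mulVec, hP1, ih]
    refine ⟨(∑ x, μ x * |f x|) * (2 * ∑ z, |f z|), fun j => ?_⟩
    have hoscj := osc_contract_pow (μ := μ) (NormedSpace.exp (t • A)) hP1 hmix f _ hosc j
    have hmean : ip μ 1 (((NormedSpace.exp (t • A)) ^ j) *ᵥ f) = 0 := by
      rw [(hPsa.pow j) 1 f, hone j, hf]
    have habs := abs_le_of_mean_zero hμ0 hμ1 _ _ hmean hoscj
    calc ip μ f (((NormedSpace.exp (t • A)) ^ j) *ᵥ f)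
        = ∑ x, μ x * f x * (((NormedSpace.exp (t • A)) ^ j) *ᵥ f) x := rfl
      _ ≤ ∑ x, μ x * |f x| * ((2 * ∑ z, |f z|) / 2 ^ j) := by
          refine Finset.sum_le_sum (fun x _ => ?_)
          have h5 : f x * (((NormedSpace.exp (t • A)) ^ j) *ᵥ f) x ≤
              |f x| * ((2 * ∑ z, |f z|) / 2 ^ j) := by
            calc f x * (((NormedSpace.exp (t • A)) ^ j) *ᵥ f) x
                ≤ |f x * (((NormedSpace.exp (t • A)) ^ j) *ᵥ f) x| := le_abs_self _
              _ = |f x| * |(((NormedSpace.exp (t • A)) ^ j) *ᵥ f) x| := abs_mul _ _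
              _ ≤ |f x| * ((2 * ∑ z, |f z|) / 2 ^ j) :=
                  mul_le_mul_of_nonneg_left (habs x) (abs_nonneg _)
          have h6 := mul_le_mul_of_nonneg_left h5 (hμ0 x)
          rw [mul_assoc, mul_assoc]
          exact h6
      _ = (∑ x, μ x * |f x|) * (2 * ∑ z, |f z|) / 2 ^ j := by
          rw [← Finset.sum_mul]
          ring
  -- combine
  by_contra hcon
  push Not at hcon
  have hr1 : 1 < 2 * Real.exp (-(t * (-(ip μ f (A *ᵥ f)) / ip μ f f))) := by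
    have h7 : t * (-(ip μ f (A *ᵥ f)) / ip μ f f) < Real.log 2 := by
      rw [← mul_div_assoc, div_lt_iff₀ h0]
      exact hcon
    have h8 : -(Real.log 2) < -(t * (-(ip μ f (A *ᵥ f)) / ip μ f f)) := by linarith
    have h9 := Real.exp_lt_exp.2 h8
    rw [Real.exp_neg, Real.exp_log (by norm_num)] at h9
    linarith
  have hbound : ∀ j : ℕ,
      (2 * Real.exp (-(t * (-(ip μ f (A *ᵥ f)) / ip μ f f)))) ^ j ≤ C / ip μ f f := by
    intro j
    have h3 := le_trans (hLB j) (hC j)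
    have h4 : Real.exp (-((j : ℝ) * t) * (-(ip μ f (A *ᵥ f)) / ip μ f f)) =
        Real.exp (-(t * (-(ip μ f (A *ᵥ f)) / ip μ f f))) ^ j := by
      rw [← Real.exp_nat_mul]
      congr 1
      ring
    rw [h4] at h3
    have h2pos : (0 : ℝ) < 2 ^ j := by positivity
    rw [le_div_iff₀ h2pos] at h3
    rw [mul_pow, le_div_iff₀ h0]
    linarith
  obtain ⟨j, hj⟩ := pow_unbounded_of_one_lt (C / ip μ f f) hr1
  exact absurd (hbound j) (not_le.2 hj)

end Mixing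

end Vale.Agent.Lib.P150
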