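import Mathlib

/-!
# Heat-bath Glauber dynamics of zero-field Ising measures on `{-1,1}^n`: definitions

Gibbs measure, heat-bath generator, Dirichlet form, variance, relaxation time, two-point
correlations, and the Sherrington-Kirkpatrick couplings.
-/

namespace Vale.Agent.Lib.P150

/-- The value `+1` or `-1` of a spin encoded by a Boolean (`true` is `+1`). -/
def spin (b : Bool) : ℝ := if b then 1 else -1

/-- The exponent of the Gibbs weight, `∑_{i<j} J i j * x_i * x_j`. -/
def energy {n : ℕ} (J : Fin n → Fin n → ℝ) (x : Fin n → Bool) : ℝ :=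
  ∑ i, ∑ j, if i < j then J i j * spin (x i) * spin (x j) else 0

/-- The unnormalised Gibbs weight `exp (∑_{i<j} J i j * x_i * x_j)`. -/
noncomputable def weight {n : ℕ} (J : Fin n → Fin n → ℝ) (x : Fin n → Bool) : ℝ :=
  Real.exp (energy J x)

/-- The normalising constant `Z`. -/
noncomputable def partitionFn {n : ℕ} (J : Fin n → Fin n → ℝ) : ℝ :=
  ∑ x, weight J x

/-- The Gibbs probability `μ(x) = weight(x) / Z`. -/
noncomputable def gibbs {n : ℕ} (J : Fin n → Fin n → ℝ) (x : Fin n → Bool) : ℝ :=
  weight J x / partitionFn J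

/-- Expectation under the Gibbs measure. -/
noncomputable def gibbsAvg {n : ℕ} (J : Fin n → Fin n → ℝ) (f : (Fin n → Bool) → ℝ) : ℝ :=
  ∑ x, gibbs J x * f x

/-- The configuration `x` with the spin at site `i` flipped. -/
def flipAt {n : ℕ} (x : Fin n → Bool) (i : Fin n) : Fin n → Bool :=
  Function.update x i (!(x i))

/-- Heat-bath update at site `i`: the conditional expectation of `f` under the Gibbs measure
given all spins other than the one at `i`. -/
noncomputable def resample {n : ℕ} (J : Fin n → Fin n → ℝ) (i : Fin n)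
    (f : (Fin n → Bool) → ℝ) (x : Fin n → Bool) : ℝ :=
  (gibbs J x * f x + gibbs J (flipAt x i) * f (flipAt x i)) /
    (gibbs J x + gibbs J (flipAt x i))

/-- The generator `L = ∑_i (Q_i - I)` of the continuous-time heat-bath Glauber dynamics
(every site is resampled at rate one). -/
noncomputable def generator {n : ℕ} (J : Fin n → Fin n → ℝ)
    (f : (Fin n → Bool) → ℝ) (x : Fin n → Bool) : ℝ :=
  ∑ i, (resample J i f x - f x)

/-- The Dirichlet form `E(f,f) = ⟨f, -L f⟩` in `L^2` of the Gibbs measure. -/
noncomputable def dirichletForm {n : ℕ} (J : Fin n → Fin n → ℝ)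
    (f : (Fin n → Bool) → ℝ) : ℝ :=
  gibbsAvg J (fun x => f x * (-(generator J f x)))

/-- The variance of `f` under the Gibbs measure. -/
noncomputable def variance {n : ℕ} (J : Fin n → Fin n → ℝ)
    (f : (Fin n → Bool) → ℝ) : ℝ :=
  gibbsAvg J (fun x => (f x - gibbsAvg J f) ^ 2)

/-- The relaxation time (inverse spectral gap of `-L`), as the supremum over all functions `f` of
`Var(f) / E(f,f)`, valued in `[0,∞]` (a quotient `0 / 0` counts as `0`). -/
noncomputable def relaxTime {n : ℕ} (J : Fin n → Fin n → ℝ) : ENNReal :=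
  ⨆ f : (Fin n → Bool) → ℝ,
    ENNReal.ofReal (variance J f) / ENNReal.ofReal (dirichletForm J f)

/-- The two-point correlation `⟨x_i x_j⟩` under the Gibbs measure. -/
noncomputable def corr {n : ℕ} (J : Fin n → Fin n → ℝ) (i j : Fin n) : ℝ :=
  gibbsAvg J (fun x => spin (x i) * spin (x j))

/-- The Sherrington-Kirkpatrick couplings `J i j = β / √n * g (i, j)`; only the entries with
`i < j` enter the Gibbs weight. -/
noncomputable def skCoupling (n : ℕ) (β : ℝ) (g : Fin n × Fin n → ℝ) : Fin n → Fin n → ℝ :=
  fun i j => β / Real.sqrt n * g (i, j)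

end Vale.Agent.Lib.P150
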