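import Vale.Agent.Lib.P150.Defs

/-!
# A deterministic lower bound on the relaxation time in terms of two-point correlations
-/

namespace Vale.Agent.Lib.P150

open Finset

variable {n : ℕ}

lemma spin_mul_self (b : Bool) : spin b * spin b = 1 := by
  cases b <;> simp [spin]

lemma spin_not (b : Bool) : spin (!b) = -spin b := by
  cases b <;> simp [spin]

lemma abs_spin (b : Bool) : |spin b| = 1 := by
  cases b <;> simp [spin]

lemma flipAt_flipAt (x : Fin n → Bool) (i : Fin n) : flipAt (flipAt x i) i = x := by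
  unfold flipAt
  simp

lemma flipAt_involutive (i : Fin n) : Function.Involutive (fun x : Fin n → Bool => flipAt x i) :=
  fun x => flipAt_flipAt x i

lemma sum_flipAt (i : Fin n) (F : (Fin n → Bool) → ℝ) :
    ∑ x, F (flipAt x i) = ∑ x, F x :=
  Equiv.sum_comp (flipAt_involutive i).toPerm F

lemma weight_pos (J : Fin n → Fin n → ℝ) (x : Fin n → Bool) : 0 < weight J x :=
  Real.exp_pos _

lemma partitionFn_pos (J : Fin n → Fin n → ℝ) : 0 < partitionFn J :=
  Finset.sum_pos (fun x _ => weight_pos J x) Finset.univ_nonempty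

lemma gibbs_pos (J : Fin n → Fin n → ℝ) (x : Fin n → Bool) : 0 < gibbs J x :=
  div_pos (weight_pos J x) (partitionFn_pos J)

lemma sum_gibbs (J : Fin n → Fin n → ℝ) : ∑ x, gibbs J x = 1 := by
  unfold gibbs
  rw [← Finset.sum_div]
  exact div_self (partitionFn_pos J).ne'

/-- The global spin flip. -/
def negAll (x : Fin n → Bool) : Fin n → Bool := fun i => !(x i)

lemma negAll_involutive : Function.Involutive (negAll (n := n)) := by
  intro x
  funext i
  simp [negAll]

lemma energy_negAll (J : Fin n → Fin n → ℝ) (x : Fin n → Bool) :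
    energy J (negAll x) = energy J x := by
  unfold energy negAll
  refine Finset.sum_congr rfl (fun i _ => Finset.sum_congr rfl (fun j _ => ?_))
  simp only [spin_not]
  split_ifs <;> ring

lemma gibbs_negAll (J : Fin n → Fin n → ℝ) (x : Fin n → Bool) :
    gibbs J (negAll x) = gibbs J x := by
  unfold gibbs weight
  rw [energy_negAll]

lemma sum_negAll (F : (Fin n → Bool) → ℝ) : ∑ x, F (negAll x) = ∑ x, F x :=
  Equiv.sum_comp (negAll_involutive (n := n)).toPerm F

/-- The linear test function `x ↦ ∑_i y_i x_i`. -/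
def linFn (y : Fin n → Bool) (x : Fin n → Bool) : ℝ := ∑ i, spin (y i) * spin (x i)

lemma linFn_negAll (y x : Fin n → Bool) : linFn y (negAll x) = -linFn y x := by
  unfold linFn negAll
  rw [← Finset.sum_neg_distrib]
  refine Finset.sum_congr rfl (fun i _ => ?_)
  rw [spin_not]
  ring

lemma gibbsAvg_linFn (J : Fin n → Fin n → ℝ) (y : Fin n → Bool) :
    gibbsAvg J (linFn y) = 0 := by
  have h : gibbsAvg J (linFn y) = -gibbsAvg J (linFn y) := by
    unfold gibbsAvg
    conv_lhs => rw [← sum_negAll]
    rw [← Finset.sum_neg_distrib]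
    refine Finset.sum_congr rfl (fun x _ => ?_)
    rw [gibbs_negAll, linFn_negAll]
    ring
  linarith

lemma variance_linFn (J : Fin n → Fin n → ℝ) (y : Fin n → Bool) :
    variance J (linFn y) = ∑ i, ∑ j, spin (y i) * spin (y j) * corr J i j := by
  unfold variance
  rw [gibbsAvg_linFn]
  unfold gibbsAvg corr gibbsAvg
  simp only [sub_zero]
  have : ∀ x : Fin n → Bool, gibbs J x * linFn y x ^ 2 =
      ∑ i, ∑ j, spin (y i) * spin (y j) * (gibbs J x * (spin (x i) * spin (x j))) := by
    intro x
    unfold linFn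
    rw [sq, Finset.sum_mul_sum, Finset.mul_sum]
    refine Finset.sum_congr rfl (fun i _ => ?_)
    rw [Finset.mul_sum]
    refine Finset.sum_congr rfl (fun j _ => ?_)
    ring
  simp_rw [this]
  rw [Finset.sum_comm]
  refine Finset.sum_congr rfl (fun i _ => ?_)
  rw [Finset.sum_comm]
  refine Finset.sum_congr rfl (fun j _ => ?_)
  rw [Finset.mul_sum]

lemma linFn_flipAt (y x : Fin n → Bool) (i : Fin n) :
    linFn y x - linFn y (flipAt x i) = 2 * (spin (y i) * spin (x i)) := by
  unfold linFn
  rw [← Finset.sum_sub_distrib]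
  rw [Finset.sum_eq_single i]
  · simp [flipAt, spin_not]
    ring
  · intro j _ hji
    simp [flipAt, Function.update_of_ne hji]
  · intro h
    exact absurd (Finset.mem_univ i) h

/-- The symmetric kernel `μ(x) μ(x^i) / (μ(x) + μ(x^i))`. -/
noncomputable def kern (J : Fin n → Fin n → ℝ) (i : Fin n) (x : Fin n → Bool) : ℝ :=
  gibbs J x * gibbs J (flipAt x i) / (gibbs J x + gibbs J (flipAt x i))

lemma kern_flipAt (J : Fin n → Fin n → ℝ) (i : Fin n) (x : Fin n → Bool) :
    kern J i (flipAt x i) = kern J i x := by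
  unfold kern
  rw [flipAt_flipAt]
  rw [mul_comm, add_comm]

lemma kern_nonneg (J : Fin n → Fin n → ℝ) (i : Fin n) (x : Fin n → Bool) :
    0 ≤ kern J i x := by
  unfold kern
  have h1 := gibbs_pos J x
  have h2 := gibbs_pos J (flipAt x i)
  positivity

lemma kern_le (J : Fin n → Fin n → ℝ) (i : Fin n) (x : Fin n → Bool) :
    kern J i x ≤ (gibbs J x + gibbs J (flipAt x i)) / 4 := by
  unfold kern
  have h1 := gibbs_pos J x
  have h2 := gibbs_pos J (flipAt x i)
  rw [div_le_div_iff₀ (by positivity) (by norm_num)]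
  nlinarith [sq_nonneg (gibbs J x - gibbs J (flipAt x i))]

lemma sum_kern_le (J : Fin n → Fin n → ℝ) (i : Fin n) :
    ∑ x, kern J i x ≤ 1 / 2 := by
  calc ∑ x, kern J i x ≤ ∑ x, (gibbs J x + gibbs J (flipAt x i)) / 4 :=
        Finset.sum_le_sum (fun x _ => kern_le J i x)
    _ = (∑ x, gibbs J x + ∑ x, gibbs J (flipAt x i)) / 4 := by
        rw [← Finset.sum_add_distrib, Finset.sum_div]
    _ = 1 / 2 := by
        rw [sum_flipAt i (fun x => gibbs J x), sum_gibbs]
        norm_num

/-- The Dirichlet form as a sum of squared discrete gradients. -/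
lemma dirichletForm_eq (J : Fin n → Fin n → ℝ) (f : (Fin n → Bool) → ℝ) :
    dirichletForm J f = ∑ i, ∑ x, kern J i x * (f x - f (flipAt x i)) ^ 2 / 2 := by
  have step1 : dirichletForm J f =
      ∑ i, ∑ x, kern J i x * (f x * (f x - f (flipAt x i))) := by
    unfold dirichletForm gibbsAvg generator
    rw [Finset.sum_comm]
    refine Finset.sum_congr rfl (fun x _ => ?_)
    show gibbs J x * (f x * -∑ i, (resample J i f x - f x)) = _
    rw [← Finset.sum_neg_distrib, Finset.mul_sum, Finset.mul_sum]
    refine Finset.sum_congr rfl (fun i _ => ?_)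
    unfold resample kern
    have h1 := gibbs_pos J x
    have h2 := gibbs_pos J (flipAt x i)
    field_simp
    ring
  rw [step1]
  refine Finset.sum_congr rfl (fun i _ => ?_)
  have h2 : ∑ x, kern J i x * (f x * (f x - f (flipAt x i))) =
      ∑ x, kern J i x * (f (flipAt x i) * (f (flipAt x i) - f x)) := by
    rw [← sum_flipAt i (fun x => kern J i x * (f x * (f x - f (flipAt x i))))]
    refine Finset.sum_congr rfl (fun x _ => ?_)
    rw [kern_flipAt, flipAt_flipAt]
  have h3 : ∑ x, kern J i x * (f x - f (flipAt x i)) ^ 2 / 2 =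
      (∑ x, kern J i x * (f x * (f x - f (flipAt x i))) +
        ∑ x, kern J i x * (f (flipAt x i) * (f (flipAt x i) - f x))) / 2 := by
    rw [← Finset.sum_add_distrib, Finset.sum_div]
    refine Finset.sum_congr rfl (fun x _ => ?_)
    ring
  rw [h3, ← h2]
  ring

lemma dirichletForm_linFn_le (J : Fin n → Fin n → ℝ) (y : Fin n → Bool) :
    dirichletForm J (linFn y) ≤ n := by
  rw [dirichletForm_eq]
  calc ∑ i, ∑ x, kern J i x * (linFn y x - linFn y (flipAt x i)) ^ 2 / 2
      = ∑ i, 2 * ∑ x, kern J i x := by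
        refine Finset.sum_congr rfl (fun i _ => ?_)
        rw [Finset.mul_sum]
        refine Finset.sum_congr rfl (fun x _ => ?_)
        rw [linFn_flipAt]
        have h1 := spin_mul_self (y i)
        have h2 := spin_mul_self (x i)
        have : (2 * (spin (y i) * spin (x i))) ^ 2 = 4 := by
          calc (2 * (spin (y i) * spin (x i))) ^ 2
              = 4 * ((spin (y i) * spin (y i)) * (spin (x i) * spin (x i))) := by ring
            _ = 4 := by rw [h1, h2]; norm_num
        rw [this]
        ring
    _ ≤ ∑ _i : Fin n, (1 : ℝ) := by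
        refine Finset.sum_le_sum (fun i _ => ?_)
        have := sum_kern_le J i
        linarith
    _ = n := by simp

/-- Every linear test function gives a lower bound on the relaxation time. -/
lemma variance_linFn_le_relaxTime (J : Fin n → Fin n → ℝ) (y : Fin n → Bool) :
    ENNReal.ofReal (variance J (linFn y) / n) ≤ relaxTime J := by
  rcases Nat.eq_zero_or_pos n with hn | hn
  · subst hn
    simp
  have hn' : (0 : ℝ) < n := by exact_mod_cast hn
  calc ENNReal.ofReal (variance J (linFn y) / n)
      = ENNReal.ofReal (variance J (linFn y)) / ENNReal.ofReal n :=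
        ENNReal.ofReal_div_of_pos hn'
    _ ≤ ENNReal.ofReal (variance J (linFn y)) / ENNReal.ofReal (dirichletForm J (linFn y)) :=
        ENNReal.div_le_div_left (ENNReal.ofReal_le_ofReal (dirichletForm_linFn_le J y)) _
    _ ≤ relaxTime J := le_iSup (fun f : (Fin n → Bool) → ℝ =>
        ENNReal.ofReal (variance J f) / ENNReal.ofReal (dirichletForm J f)) (linFn y)

lemma sum_gibbs_variance_linFn (J : Fin n → Fin n → ℝ) :
    ∑ y, gibbs J y * variance J (linFn y) = ∑ i, ∑ j, corr J i j ^ 2 := by
  simp_rw [variance_linFn, Finset.mul_sum]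
  rw [Finset.sum_comm]
  refine Finset.sum_congr rfl (fun i _ => ?_)
  rw [Finset.sum_comm]
  refine Finset.sum_congr rfl (fun j _ => ?_)
  have : ∀ y : Fin n → Bool, gibbs J y * (spin (y i) * spin (y j) * corr J i j) =
      corr J i j * (gibbs J y * (spin (y i) * spin (y j))) := fun y => by ring
  simp_rw [this]
  rw [← Finset.mul_sum, sq]
  rfl

/-- **Deterministic bound.** For every coupling matrix `J` the relaxation time of the heat-bath
Glauber dynamics is at least `(1/n) ∑_{i,j} ⟨x_i x_j⟩^2`. -/
theorem corr_sq_le_relaxTime (J : Fin n → Fin n → ℝ) :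
    ENNReal.ofReal ((∑ i, ∑ j, corr J i j ^ 2) / n) ≤ relaxTime J := by
  obtain ⟨y, hy⟩ : ∃ y : Fin n → Bool, ∑ i, ∑ j, corr J i j ^ 2 ≤ variance J (linFn y) := by
    by_contra hcon
    push Not at hcon
    have hlt : ∑ y, gibbs J y * variance J (linFn y) <
        ∑ y : Fin n → Bool, gibbs J y * ∑ i, ∑ j, corr J i j ^ 2 :=
      Finset.sum_lt_sum_of_nonempty Finset.univ_nonempty
        (fun y _ => mul_lt_mul_of_pos_left (hcon y) (gibbs_pos J y))
    rw [sum_gibbs_variance_linFn, ← Finset.sum_mul, sum_gibbs, one_mul] at hlt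
    exact lt_irrefl _ hlt
  refine le_trans (ENNReal.ofReal_le_ofReal ?_) (variance_linFn_le_relaxTime J y)
  exact div_le_div_of_nonneg_right hy (Nat.cast_nonneg n)

end Vale.Agent.Lib.P150
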