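import Vale.Agent.Lib.P150.Defs

/-!
# Heat-bath Glauber dynamics of zero-field Ising measures: transition kernel and mixing time
-/

namespace Vale.Agent.Lib.P150

/-- The rate matrix of the Glauber dynamics, `Q x y = (L 1_y) x`: the generator applied to the
indicator function of `y`, evaluated at `x`. -/
noncomputable def rateMatrix {n : ℕ} (J : Fin n → Fin n → ℝ) :
    Matrix (Fin n → Bool) (Fin n → Bool) ℝ :=
  fun x y => generator J (fun z => if z = y then 1 else 0) x

/-- The transition kernel `P_t = exp (t Q)` of the continuous-time Glauber dynamics. -/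
noncomputable def transKernel {n : ℕ} (J : Fin n → Fin n → ℝ) (t : ℝ) :
    Matrix (Fin n → Bool) (Fin n → Bool) ℝ :=
  NormedSpace.exp (t • rateMatrix J)

/-- Total variation distance between `P_t(x, ·)` and the Gibbs measure. -/
noncomputable def tvDist {n : ℕ} (J : Fin n → Fin n → ℝ) (t : ℝ) (x : Fin n → Bool) : ℝ :=
  (1 / 2) * ∑ y, |transKernel J t x y - gibbs J y|

/-- The mixing time `inf {t ≥ 0 : max_x ‖P_t(x, ·) - μ‖_TV ≤ 1/4}`, valued in `[0,∞]`
(the infimum of the empty set is `∞`). -/
noncomputable def mixingTime {n : ℕ} (J : Fin n → Fin n → ℝ) : ENNReal :=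
  ⨅ t : {t : ℝ // 0 ≤ t ∧ ∀ x, tvDist J t x ≤ 1 / 4}, ENNReal.ofReal t

end Vale.Agent.Lib.P150
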