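import Vale.Agent.Lib.P150.Ising
import Vale.Agent.Lib.P150.MixDefs
import Vale.Agent.Lib.P150.ChainExp

/-!
# The mixing time of heat-bath Glauber dynamics is at least `log 2` times the relaxation time
-/

namespace Vale.Agent.Lib.P150

open Finset

open scoped Matrix

variable {n : ℕ}

lemma flipAt_ne (x : Fin n → Bool) (i : Fin n) : flipAt x i ≠ x := by
  intro h
  have := congrFun h i
  simp [flipAt] at this

lemma rateMatrix_mulVec (J : Fin n → Fin n → ℝ) (f : (Fin n → Bool) → ℝ) :
    rateMatrix J *ᵥ f = generator J f := by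
  funext x
  simp only [Matrix.mulVec, dotProduct, rateMatrix, generator]
  simp_rw [Finset.sum_mul]
  rw [Finset.sum_comm]
  refine Finset.sum_congr rfl (fun i _ => ?_)
  unfold resample
  have h1 := gibbs_pos J x
  have h2 := gibbs_pos J (flipAt x i)
  have e : ∀ y : Fin n → Bool,
      ((gibbs J x * (if x = y then (1 : ℝ) else 0) +
        gibbs J (flipAt x i) * (if flipAt x i = y then (1 : ℝ) else 0)) /
        (gibbs J x + gibbs J (flipAt x i)) - (if x = y then (1 : ℝ) else 0)) * f y =
      gibbs J x / (gibbs J x + gibbs J (flipAt x i)) * (if x = y then f y else 0) +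
      gibbs J (flipAt x i) / (gibbs J x + gibbs J (flipAt x i)) *
        (if flipAt x i = y then f y else 0) - (if x = y then f y else 0) := by
    intro y
    by_cases hxy : x = y
    · have hxy' : flipAt x i ≠ y := by
        rw [← hxy]
        exact flipAt_ne x i
      rw [if_pos hxy, if_pos hxy, if_neg hxy', if_neg hxy']
      ring
    · by_cases hxy' : flipAt x i = y
      · rw [if_neg hxy, if_neg hxy, if_pos hxy', if_pos hxy']
        ring
      · rw [if_neg hxy, if_neg hxy, if_neg hxy', if_neg hxy']
        ring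
  simp_rw [e]
  rw [Finset.sum_sub_distrib, Finset.sum_add_distrib, ← Finset.mul_sum, ← Finset.mul_sum]
  simp only [Finset.sum_ite_eq, Finset.mem_univ, if_true]
  field_simp

/-- The bilinear Dirichlet form as a sum of products of discrete gradients. -/
lemma sum_gibbs_mul_generator (J : Fin n → Fin n → ℝ) (u v : (Fin n → Bool) → ℝ) :
    ∑ x, gibbs J x * u x * generator J v x =
      -∑ i, ∑ x, kern J i x * ((u x - u (flipAt x i)) * (v x - v (flipAt x i))) / 2 := by
  have key : ∀ (i : Fin n) (x : Fin n → Bool), gibbs J x * u x * (resample J i v x - v x) =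
      -(kern J i x * (u x * (v x - v (flipAt x i)))) := by
    intro i x
    unfold resample kern
    have h1 := gibbs_pos J x
    have h2 := gibbs_pos J (flipAt x i)
    field_simp
    ring
  have step1 : ∑ x, gibbs J x * u x * generator J v x =
      -∑ i, ∑ x, kern J i x * (u x * (v x - v (flipAt x i))) := by
    unfold generator
    simp_rw [Finset.mul_sum, key]
    rw [Finset.sum_comm]
    simp_rw [Finset.sum_neg_distrib]
  rw [step1]
  congr 1
  refine Finset.sum_congr rfl (fun i _ => ?_)
  have h2 : ∑ x, kern J i x * (u x * (v x - v (flipAt x i))) =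
      ∑ x, kern J i x * (u (flipAt x i) * (v (flipAt x i) - v x)) := by
    rw [← sum_flipAt i (fun x => kern J i x * (u x * (v x - v (flipAt x i))))]
    refine Finset.sum_congr rfl (fun x _ => ?_)
    rw [kern_flipAt, flipAt_flipAt]
  have h3 : ∑ x, kern J i x * ((u x - u (flipAt x i)) * (v x - v (flipAt x i))) / 2 =
      (∑ x, kern J i x * (u x * (v x - v (flipAt x i))) +
        ∑ x, kern J i x * (u (flipAt x i) * (v (flipAt x i) - v x))) / 2 := by
    rw [← Finset.sum_add_distrib, Finset.sum_div]
    refine Finset.sum_congr rfl (fun x _ => ?_)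
    ring
  rw [h3, ← h2]
  ring

/-- Reversibility: the rate matrix is self-adjoint in `L^2` of the Gibbs measure. -/
lemma selfAdj_rateMatrix (J : Fin n → Fin n → ℝ) : SelfAdj (gibbs J) (rateMatrix J) := by
  intro u v
  rw [rateMatrix_mulVec, rateMatrix_mulVec]
  unfold ip
  rw [sum_gibbs_mul_generator]
  have e : ∑ x, gibbs J x * generator J u x * v x = ∑ x, gibbs J x * v x * generator J u x :=
    Finset.sum_congr rfl (fun x _ => by ring)
  rw [e, sum_gibbs_mul_generator]
  congr 1
  refine Finset.sum_congr rfl (fun i _ => Finset.sum_congr rfl (fun x _ => ?_))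
  ring

lemma rateMatrix_mulVec_one (J : Fin n → Fin n → ℝ) :
    rateMatrix J *ᵥ (1 : (Fin n → Bool) → ℝ) = 0 := by
  rw [rateMatrix_mulVec]
  funext x
  simp only [Pi.zero_apply]
  unfold generator
  refine Finset.sum_eq_zero (fun i _ => ?_)
  unfold resample
  have h1 := gibbs_pos J x
  have h2 := gibbs_pos J (flipAt x i)
  simp only [Pi.one_apply, mul_one]
  rw [div_self (by positivity)]
  ring

lemma kern_le_left (J : Fin n → Fin n → ℝ) (i : Fin n) (x : Fin n → Bool) :
    kern J i x ≤ gibbs J x := by
  unfold kern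
  have h1 := gibbs_pos J x
  have h2 := gibbs_pos J (flipAt x i)
  rw [div_le_iff₀ (by positivity)]
  nlinarith

lemma rateMatrix_psd (J : Fin n → Fin n → ℝ) (u : (Fin n → Bool) → ℝ) :
    0 ≤ ip (gibbs J) u
      ((rateMatrix J + (2 * (n : ℝ)) • (1 : Matrix (Fin n → Bool) (Fin n → Bool) ℝ)) *ᵥ u) := by
  rw [Matrix.add_mulVec, Matrix.smul_mulVec, Matrix.one_mulVec, ip_add_right, ip_smul_right,
    rateMatrix_mulVec]
  have hE : ip (gibbs J) u (generator J u) =
      -∑ i, ∑ x, kern J i x * ((u x - u (flipAt x i)) * (u x - u (flipAt x i))) / 2 :=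
    sum_gibbs_mul_generator J u u
  rw [hE]
  have hb : ∀ i : Fin n,
      ∑ x, kern J i x * ((u x - u (flipAt x i)) * (u x - u (flipAt x i))) / 2 ≤
        2 * ip (gibbs J) u u := by
    intro i
    calc ∑ x, kern J i x * ((u x - u (flipAt x i)) * (u x - u (flipAt x i))) / 2
        ≤ ∑ x, (gibbs J x * u x * u x +
            gibbs J (flipAt x i) * u (flipAt x i) * u (flipAt x i)) := by
          refine Finset.sum_le_sum (fun x _ => ?_)
          have h1 := kern_le_left J i x
          have h2 : kern J i x ≤ gibbs J (flipAt x i) := by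
            have := kern_le_left J i (flipAt x i)
            rwa [kern_flipAt] at this
          have h0 := kern_nonneg J i x
          nlinarith [mul_nonneg (sub_nonneg.2 h1) (mul_self_nonneg (u x)),
            mul_nonneg (sub_nonneg.2 h2) (mul_self_nonneg (u (flipAt x i))),
            mul_nonneg h0 (mul_self_nonneg (u x + u (flipAt x i)))]
      _ = 2 * ip (gibbs J) u u := by
          rw [Finset.sum_add_distrib, sum_flipAt i (fun x => gibbs J x * u x * u x)]
          unfold ip
          ring
  have hsum : ∑ i, ∑ x, kern J i x * ((u x - u (flipAt x i)) * (u x - u (flipAt x i))) / 2 ≤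
      ∑ _i : Fin n, 2 * ip (gibbs J) u u := Finset.sum_le_sum (fun i _ => hb i)
  rw [Finset.sum_const, Finset.card_univ, Fintype.card_fin, nsmul_eq_mul] at hsum
  linarith

lemma ip_one_center (J : Fin n → Fin n → ℝ) (f : (Fin n → Bool) → ℝ) :
    ip (gibbs J) 1 (fun x => f x - gibbsAvg J f) = 0 := by
  unfold ip
  simp only [Pi.one_apply, mul_one]
  simp_rw [mul_sub]
  rw [Finset.sum_sub_distrib, ← Finset.sum_mul, sum_gibbs]
  unfold gibbsAvg
  ring

lemma ip_center_center (J : Fin n → Fin n → ℝ) (f : (Fin n → Bool) → ℝ) :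
    ip (gibbs J) (fun x => f x - gibbsAvg J f) (fun x => f x - gibbsAvg J f) = variance J f := by
  show ∑ x, gibbs J x * (f x - gibbsAvg J f) * (f x - gibbsAvg J f) =
    ∑ x, gibbs J x * (f x - gibbsAvg J f) ^ 2
  exact Finset.sum_congr rfl (fun x _ => by ring)

lemma ip_center_generator (J : Fin n → Fin n → ℝ) (f : (Fin n → Bool) → ℝ) :
    -(ip (gibbs J) (fun x => f x - gibbsAvg J f)
      (rateMatrix J *ᵥ (fun x => f x - gibbsAvg J f))) = dirichletForm J f := by
  rw [rateMatrix_mulVec, dirichletForm_eq]
  unfold ip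
  rw [sum_gibbs_mul_generator, neg_neg]
  refine Finset.sum_congr rfl (fun i _ => Finset.sum_congr rfl (fun x _ => ?_))
  ring

/-- **Mixing versus relaxation.** For every coupling matrix, the mixing time of the
continuous-time heat-bath Glauber dynamics is at least `log 2` times its relaxation time. -/
theorem log_two_mul_relaxTime_le_mixingTime (J : Fin n → Fin n → ℝ) :
    ENNReal.ofReal (Real.log 2) * relaxTime J ≤ mixingTime J := by
  unfold mixingTime
  refine le_iInf (fun t => ?_)
  obtain ⟨t, ht0, htmix⟩ := t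
  unfold relaxTime
  rw [ENNReal.mul_iSup]
  refine iSup_le (fun f => ?_)
  have hmix : ∀ x, ∑ y, |NormedSpace.exp (t • rateMatrix J) x y - gibbs J y| ≤ 1 / 2 := by
    intro x
    have := htmix x
    unfold tvDist transKernel at this
    linarith
  have hmain := chain_mixing_lower (gibbs J) (gibbs_pos J) (sum_gibbs J) (rateMatrix J)
    (2 * (n : ℝ)) (selfAdj_rateMatrix J) (rateMatrix_mulVec_one J) (rateMatrix_psd J) t ht0 hmix
    (fun x => f x - gibbsAvg J f) (ip_one_center J f)
  rw [ip_center_center, ip_center_generator] at hmain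
  have hlog : 0 < Real.log 2 := Real.log_pos (by norm_num)
  rcases le_or_gt (dirichletForm J f) 0 with hE | hE
  · have hV : variance J f ≤ 0 := by
      have h3 : Real.log 2 * variance J f ≤ 0 :=
        le_trans hmain (mul_nonpos_of_nonneg_of_nonpos ht0 hE)
      by_contra hcon
      push Not at hcon
      have := mul_pos hlog hcon
      linarith
    rw [ENNReal.ofReal_of_nonpos hV]
    simp
  · rw [← ENNReal.ofReal_div_of_pos hE, ← ENNReal.ofReal_mul hlog.le]
    refine ENNReal.ofReal_le_ofReal ?_
    rw [← mul_div_assoc, div_le_iff₀ hE]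
    exact hmain

end Vale.Agent.Lib.P150
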