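import Mathlib

/-!
# Gaussian integration by parts in one variable, and resampling one coordinate of a product measure
-/

namespace Vale.Agent.Lib.P150

open MeasureTheory ProbabilityTheory

lemma gaussPDF_eq (t : ℝ) :
    gaussianPDFReal 0 1 t = (Real.sqrt (2 * Real.pi))⁻¹ * Real.exp (-(1 / 2) * t ^ 2) := by
  unfold gaussianPDFReal
  simp only [NNReal.coe_one, mul_one, sub_zero]
  congr 2
  ring

/-- Gaussian integration by parts for a bounded differentiable function with bounded
continuous derivative. -/
theorem stein_identity (F F' : ℝ → ℝ) (C : ℝ)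
    (hF : ∀ t, HasDerivAt F (F' t) t) (hFb : ∀ t, |F t| ≤ C) (hF'b : ∀ t, |F' t| ≤ C)
    (hF'c : Continuous F') :
    ∫ t, t * F t ∂(gaussianReal 0 1) = ∫ t, F' t ∂(gaussianReal 0 1) := by
  have hv : (1 : NNReal) ≠ 0 := one_ne_zero
  rw [integral_gaussianReal_eq_integral_smul hv, integral_gaussianReal_eq_integral_smul hv]
  simp only [smul_eq_mul]
  set c : ℝ := (Real.sqrt (2 * Real.pi))⁻¹ with hc
  have hφ : ∀ t, gaussianPDFReal 0 1 t = c * Real.exp (-(1 / 2) * t ^ 2) := gaussPDF_eq
  simp_rw [hφ]
  have hFc : Continuous F := continuous_iff_continuousAt.2 (fun t => (hF t).continuousAt)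
  have hE : Integrable (fun t : ℝ => Real.exp (-(1 / 2) * t ^ 2)) :=
    integrable_exp_neg_mul_sq (by norm_num)
  have hxE : Integrable (fun t : ℝ => t * Real.exp (-(1 / 2) * t ^ 2)) :=
    integrable_mul_exp_neg_mul_sq (by norm_num)
  have hφd : ∀ t : ℝ, HasDerivAt (fun t : ℝ => c * Real.exp (-(1 / 2) * t ^ 2))
      (c * (Real.exp (-(1 / 2) * t ^ 2) * (-(1 / 2) * (2 * t)))) t := by
    intro t
    have h1 : HasDerivAt (fun t : ℝ => -(1 / 2) * t ^ 2) (-(1 / 2) * (2 * t)) t := by
      have := (hasDerivAt_pow 2 t).const_mul (-(1 / 2) : ℝ)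
      simpa using this
    exact (h1.exp).const_mul c
  -- the product `φ * F` and its derivative
  have hderiv : ∀ t : ℝ, HasDerivAt (fun t : ℝ => c * Real.exp (-(1 / 2) * t ^ 2) * F t)
      (c * Real.exp (-(1 / 2) * t ^ 2) * F' t - c * Real.exp (-(1 / 2) * t ^ 2) * (t * F t)) t := by
    intro t
    exact ((hφd t).mul (hF t)).congr_deriv (by ring)
  have hI1 : Integrable (fun t : ℝ => c * Real.exp (-(1 / 2) * t ^ 2) * F' t) := by
    refine (hE.const_mul c).mul_bdd (c := C) hF'c.aestronglyMeasurable ?_
    exact Filter.Eventually.of_forall (fun t => by simpa [Real.norm_eq_abs] using hF'b t)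
  have hI2 : Integrable (fun t : ℝ => c * Real.exp (-(1 / 2) * t ^ 2) * (t * F t)) := by
    have h := (hxE.const_mul c).mul_bdd (c := C) hFc.aestronglyMeasurable
      (Filter.Eventually.of_forall (fun t => by simpa [Real.norm_eq_abs] using hFb t))
    refine h.congr (Filter.Eventually.of_forall (fun t => ?_))
    simp only
    ring
  have hI3 : Integrable (fun t : ℝ => c * Real.exp (-(1 / 2) * t ^ 2) * F t) := by
    refine (hE.const_mul c).mul_bdd (c := C) hFc.aestronglyMeasurable ?_
    exact Filter.Eventually.of_forall (fun t => by simpa [Real.norm_eq_abs] using hFb t)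
  have key := integral_eq_zero_of_hasDerivAt_of_integrable hderiv (hI1.sub hI2) hI3
  rw [integral_sub hI1 hI2] at key
  linarith

variable {ι : Type*} [Fintype ι] [DecidableEq ι]

omit [Fintype ι] in
lemma measurable_updateMap (k : ι) :
    Measurable (fun p : (ι → ℝ) × ℝ => Function.update p.1 k p.2) := by
  refine measurable_pi_iff.2 (fun i => ?_)
  by_cases h : i = k
  · subst h
    simpa using measurable_snd
  · have hm : Measurable (fun p : (ι → ℝ) × ℝ => p.1 i) :=
      (measurable_pi_apply i).comp measurable_fst
    simpa [Function.update_of_ne h] using hm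

/-- Resampling one coordinate of a product probability measure preserves it. -/
theorem measurePreserving_updateMap (γ : Measure ℝ) [IsProbabilityMeasure γ] (k : ι) :
    MeasurePreserving (fun p : (ι → ℝ) × ℝ => Function.update p.1 k p.2)
      ((Measure.pi (fun _ : ι => γ)).prod γ) (Measure.pi (fun _ : ι => γ)) := by
  have hmeas := measurable_updateMap (ι := ι) k
  refine ⟨hmeas, ?_⟩
  symm
  refine Measure.pi_eq (fun s hs => ?_)
  rw [Measure.map_apply hmeas (MeasurableSet.univ_pi hs)]
  have hpre : (fun p : (ι → ℝ) × ℝ => Function.update p.1 k p.2) ⁻¹' (Set.pi Set.univ s) =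
      (Set.pi Set.univ (Function.update s k Set.univ)) ×ˢ (s k) := by
    ext ⟨h, t⟩
    simp only [Set.mem_preimage, Set.mem_pi, Set.mem_univ, forall_true_left, Set.mem_prod]
    constructor
    · intro H
      refine ⟨fun i => ?_, ?_⟩
      · by_cases hik : i = k
        · subst hik
          simp
        · have := H i
          simpa [Function.update_of_ne hik] using this
      · have := H k
        simpa using this
    · rintro ⟨H1, H2⟩ i
      by_cases hik : i = k
      · subst hik
        simpa using H2
      · have := H1 i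
        simpa [Function.update_of_ne hik] using this
  rw [hpre, Measure.prod_prod, Measure.pi_pi]
  have h1 : ∀ i, γ (Function.update s k Set.univ i) =
      Function.update (fun i => γ (s i)) k 1 i := by
    intro i
    by_cases hik : i = k
    · subst hik
      simp
    · simp [Function.update_of_ne hik]
  simp_rw [h1]
  rw [Finset.prod_update_of_mem (Finset.mem_univ k), one_mul,
    ← Finset.prod_erase_mul Finset.univ (fun i => γ (s i)) (Finset.mem_univ k),
    Finset.sdiff_singleton_eq_erase]


end Vale.Agent.Lib.P150
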