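import Vale.Agent.Lib.P150.Ising
import Vale.Agent.Lib.P150.Stein

/-!
# The Sherrington-Kirkpatrick model with Gaussian disorder: overlap and relaxation time
-/

namespace Vale.Agent.Lib.P150

open MeasureTheory ProbabilityTheory Finset

variable {n : ℕ}

/-- The pairs `(i, j)` with `i < j`. -/
def pairs (n : ℕ) : Finset (Fin n × Fin n) := Finset.univ.filter (fun p => p.1 < p.2)

/-- The product of the two spins of a pair. -/
def sp (p : Fin n × Fin n) (x : Fin n → Bool) : ℝ := spin (x p.1) * spin (x p.2)

lemma sp_mul_self (p : Fin n × Fin n) (x : Fin n → Bool) : sp p x * sp p x = 1 := by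
  unfold sp
  have h1 := spin_mul_self (x p.1)
  have h2 := spin_mul_self (x p.2)
  calc spin (x p.1) * spin (x p.2) * (spin (x p.1) * spin (x p.2))
      = (spin (x p.1) * spin (x p.1)) * (spin (x p.2) * spin (x p.2)) := by ring
    _ = 1 := by rw [h1, h2]; norm_num

lemma abs_sp (p : Fin n × Fin n) (x : Fin n → Bool) : |sp p x| = 1 := by
  unfold sp
  rw [abs_mul, abs_spin, abs_spin]
  norm_num

lemma sum_pairs (f : Fin n → Fin n → ℝ) :
    ∑ p ∈ pairs n, f p.1 p.2 = ∑ i, ∑ j, if i < j then f i j else 0 := by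
  unfold pairs
  rw [Finset.sum_filter, Fintype.sum_prod_type]

lemma sum_trichotomy (f : Fin n → Fin n → ℝ) :
    ∑ i, ∑ j, f i j = ∑ p ∈ pairs n, f p.1 p.2 + ∑ i, f i i + ∑ p ∈ pairs n, f p.2 p.1 := by
  have h3 : ∑ p ∈ pairs n, f p.2 p.1 = ∑ i, ∑ j, if j < i then f i j else 0 := by
    rw [sum_pairs (fun i j => f j i), Finset.sum_comm]
  have h2 : ∑ i, f i i = ∑ i, ∑ j, if i = j then f i j else 0 := by
    refine Finset.sum_congr rfl (fun i _ => ?_)
    simp
  rw [sum_pairs, h2, h3, ← Finset.sum_add_distrib, ← Finset.sum_add_distrib]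
  refine Finset.sum_congr rfl (fun i _ => ?_)
  rw [← Finset.sum_add_distrib, ← Finset.sum_add_distrib]
  refine Finset.sum_congr rfl (fun j _ => ?_)
  rcases lt_trichotomy i j with h | h | h
  · simp [h, h.ne, h.not_gt]
  · simp [h]
  · simp [h, h.ne', h.not_gt]

lemma card_pairs : 2 * ((pairs n).card : ℝ) + n = n * n := by
  have h := sum_trichotomy (n := n) (fun _ _ => (1 : ℝ))
  simp at h
  linarith

lemma energy_sk (β : ℝ) (g : Fin n × Fin n → ℝ) (x : Fin n → Bool) :
    energy (skCoupling n β g) x = β / Real.sqrt n * ∑ p ∈ pairs n, g p * sp p x := by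
  rw [sum_pairs (fun i j => g (i, j) * sp (i, j) x), Finset.mul_sum]
  unfold energy skCoupling sp
  refine Finset.sum_congr rfl (fun i _ => ?_)
  rw [Finset.mul_sum]
  refine Finset.sum_congr rfl (fun j _ => ?_)
  split_ifs
  · ring
  · simp

lemma abs_corr_le_one (J : Fin n → Fin n → ℝ) (i j : Fin n) : |corr J i j| ≤ 1 := by
  unfold corr gibbsAvg
  calc |∑ x, gibbs J x * (spin (x i) * spin (x j))|
      ≤ ∑ x, |gibbs J x * (spin (x i) * spin (x j))| := Finset.abs_sum_le_sum_abs _ _
    _ = ∑ x, gibbs J x := by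
        refine Finset.sum_congr rfl (fun x _ => ?_)
        rw [abs_mul, abs_mul, abs_spin, abs_spin, abs_of_pos (gibbs_pos J x)]
        ring
    _ = 1 := sum_gibbs J

lemma corr_sq_le_one (J : Fin n → Fin n → ℝ) (i j : Fin n) : corr J i j ^ 2 ≤ 1 := by
  have h := abs_corr_le_one J i j
  have := abs_le.1 h
  nlinarith

lemma corr_comm (J : Fin n → Fin n → ℝ) (i j : Fin n) : corr J i j = corr J j i := by
  unfold corr
  congr 1
  funext x
  ring

lemma corr_self (J : Fin n → Fin n → ℝ) (i : Fin n) : corr J i i = 1 := by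
  unfold corr gibbsAvg
  simp_rw [spin_mul_self, mul_one]
  exact sum_gibbs J

/-- The sum of all squared correlations in terms of the pairs `i < j`. -/
lemma sum_corr_sq (J : Fin n → Fin n → ℝ) :
    ∑ i, ∑ j, corr J i j ^ 2 = n + 2 * ∑ p ∈ pairs n, corr J p.1 p.2 ^ 2 := by
  rw [sum_trichotomy (fun i j => corr J i j ^ 2)]
  have h1 : ∑ p ∈ pairs n, corr J p.2 p.1 ^ 2 = ∑ p ∈ pairs n, corr J p.1 p.2 ^ 2 :=
    Finset.sum_congr rfl (fun p _ => by rw [corr_comm])
  have h2 : ∑ i : Fin n, corr J i i ^ 2 = n := by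
    simp [corr_self]
  rw [h1, h2]
  ring

lemma continuous_energy_sk (β : ℝ) (x : Fin n → Bool) :
    Continuous (fun g : Fin n × Fin n → ℝ => energy (skCoupling n β g) x) := by
  simp_rw [energy_sk]
  fun_prop

lemma continuous_corr_sk (β : ℝ) (i j : Fin n) :
    Continuous (fun g : Fin n × Fin n → ℝ => corr (skCoupling n β g) i j) := by
  unfold corr gibbsAvg gibbs partitionFn weight
  refine continuous_finsetSum _ (fun x _ => ?_)
  refine Continuous.mul ?_ continuous_const
  refine Continuous.div ?_ ?_ (fun g => ?_)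
  · exact (continuous_energy_sk β x).rexp
  · exact continuous_finsetSum _ (fun y _ => (continuous_energy_sk β y).rexp)
  · exact (Finset.sum_pos (fun y _ => Real.exp_pos _) Finset.univ_nonempty).ne'

section OnePair

variable (β : ℝ) (k : Fin n × Fin n) (h : Fin n × Fin n → ℝ)

/-- The part of the exponent that does not involve the coupling `k`. -/
noncomputable def restEnergy (x : Fin n → Bool) : ℝ :=
  β / Real.sqrt n * ∑ p ∈ (pairs n).erase k, h p * sp p x

lemma energy_update (hk : k ∈ pairs n) (t : ℝ) (x : Fin n → Bool) :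
    energy (skCoupling n β (Function.update h k t)) x =
      β / Real.sqrt n * t * sp k x + restEnergy β k h x := by
  rw [energy_sk]
  unfold restEnergy
  rw [← Finset.add_sum_erase (pairs n) _ hk, Function.update_self]
  have : ∑ p ∈ (pairs n).erase k, Function.update h k t p * sp p x =
      ∑ p ∈ (pairs n).erase k, h p * sp p x := by
    refine Finset.sum_congr rfl (fun p hp => ?_)
    rw [Function.update_of_ne (Finset.ne_of_mem_erase hp)]
  rw [this]
  ring

/-- The normalising constant as a function of the coupling `k`. -/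
noncomputable def zFn (t : ℝ) : ℝ :=
  ∑ x : Fin n → Bool, Real.exp (β / Real.sqrt n * t * sp k x + restEnergy β k h x)

/-- The unnormalised correlation of the pair `k` as a function of the coupling `k`. -/
noncomputable def nFn (t : ℝ) : ℝ :=
  ∑ x : Fin n → Bool, sp k x * Real.exp (β / Real.sqrt n * t * sp k x + restEnergy β k h x)

lemma zFn_pos (t : ℝ) : 0 < zFn β k h t :=
  Finset.sum_pos (fun _ _ => Real.exp_pos _) Finset.univ_nonempty

lemma corr_update (hk : k ∈ pairs n) (t : ℝ) :
    corr (skCoupling n β (Function.update h k t)) k.1 k.2 = nFn β k h t / zFn β k h t := by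
  unfold corr gibbsAvg gibbs partitionFn weight nFn zFn
  simp_rw [energy_update β k h hk]
  rw [Finset.sum_div]
  refine Finset.sum_congr rfl (fun x _ => ?_)
  unfold sp
  ring

lemma hasDerivAt_expo (t : ℝ) (x : Fin n → Bool) :
    HasDerivAt (fun t : ℝ => β / Real.sqrt n * t * sp k x + restEnergy β k h x)
      (β / Real.sqrt n * sp k x) t := by
  have h1 := ((hasDerivAt_id' t).const_mul (β / Real.sqrt n)).mul_const (sp k x)
  have h2 := h1.add_const (restEnergy β k h x)
  exact h2.congr_deriv (by ring)

lemma hasDerivAt_zFn (t : ℝ) :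
    HasDerivAt (zFn β k h) (β / Real.sqrt n * nFn β k h t) t := by
  unfold zFn nFn
  rw [Finset.mul_sum]
  refine HasDerivAt.fun_sum (fun x _ => ?_)
  exact ((hasDerivAt_expo β k h t x).exp).congr_deriv (by ring)

lemma hasDerivAt_nFn (t : ℝ) :
    HasDerivAt (nFn β k h) (β / Real.sqrt n * zFn β k h t) t := by
  unfold zFn nFn
  rw [Finset.mul_sum]
  refine HasDerivAt.fun_sum (fun x _ => ?_)
  refine (((hasDerivAt_expo β k h t x).exp).const_mul (sp k x)).congr_deriv ?_
  have hs := sp_mul_self k x
  calc sp k x * (Real.exp (β / Real.sqrt n * t * sp k x + restEnergy β k h x) *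
        (β / Real.sqrt n * sp k x))
      = (sp k x * sp k x) * (β / Real.sqrt n *
          Real.exp (β / Real.sqrt n * t * sp k x + restEnergy β k h x)) := by ring
    _ = β / Real.sqrt n *
          Real.exp (β / Real.sqrt n * t * sp k x + restEnergy β k h x) := by rw [hs, one_mul]

lemma hasDerivAt_corr_update (hk : k ∈ pairs n) (t : ℝ) :
    HasDerivAt (fun t => corr (skCoupling n β (Function.update h k t)) k.1 k.2)
      (β / Real.sqrt n * (1 - corr (skCoupling n β (Function.update h k t)) k.1 k.2 ^ 2)) t := by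
  have hfun : (fun t => corr (skCoupling n β (Function.update h k t)) k.1 k.2) =
      fun t => nFn β k h t / zFn β k h t := funext (corr_update β k h hk)
  rw [hfun, corr_update β k h hk]
  have hz := zFn_pos β k h t
  refine ((hasDerivAt_nFn β k h t).div (hasDerivAt_zFn β k h t) hz.ne').congr_deriv ?_
  field_simp

/-- Gaussian integration by parts in the single coupling `k`, the others being frozen. -/
lemma stein_corr (hk : k ∈ pairs n) :
    ∫ t, t * corr (skCoupling n β (Function.update h k t)) k.1 k.2 ∂(gaussianReal 0 1) =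
      ∫ t, β / Real.sqrt n * (1 - corr (skCoupling n β (Function.update h k t)) k.1 k.2 ^ 2)
        ∂(gaussianReal 0 1) := by
  have hF := hasDerivAt_corr_update β k h hk
  have hFc : Continuous (fun t => corr (skCoupling n β (Function.update h k t)) k.1 k.2) :=
    continuous_iff_continuousAt.2 (fun t => (hF t).continuousAt)
  refine stein_identity _ _ (max 1 |β / Real.sqrt n|) hF ?_ ?_ ?_
  · intro t
    exact le_trans (abs_corr_le_one _ _ _) (le_max_left _ _)
  · intro t
    rw [abs_mul]
    have h0 := corr_sq_le_one (skCoupling n β (Function.update h k t)) k.1 k.2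
    have h1 : |1 - corr (skCoupling n β (Function.update h k t)) k.1 k.2 ^ 2| ≤ 1 := by
      rw [abs_le]
      constructor <;> nlinarith [sq_nonneg (corr (skCoupling n β (Function.update h k t)) k.1 k.2)]
    calc |β / Real.sqrt n| * |1 - corr (skCoupling n β (Function.update h k t)) k.1 k.2 ^ 2|
        ≤ |β / Real.sqrt n| * 1 := mul_le_mul_of_nonneg_left h1 (abs_nonneg _)
      _ ≤ max 1 |β / Real.sqrt n| := by
          rw [mul_one]
          exact le_max_right _ _
  · exact continuous_const.mul (continuous_const.sub (hFc.pow 2))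

/-- Gaussian integration by parts for the correlation of one pair under the full disorder. -/
lemma ibp_pair (hk : k ∈ pairs n) :
    ∫ g, g k * corr (skCoupling n β g) k.1 k.2
        ∂(Measure.pi (fun _ : Fin n × Fin n => gaussianReal 0 1)) =
      ∫ g, β / Real.sqrt n * (1 - corr (skCoupling n β g) k.1 k.2 ^ 2)
        ∂(Measure.pi (fun _ : Fin n × Fin n => gaussianReal 0 1)) := by
  have mp := measurePreserving_updateMap (ι := Fin n × Fin n) (gaussianReal 0 1) k
  have hcorr_c := continuous_corr_sk (n := n) β k.1 k.2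
  have hA_c : Continuous (fun g : Fin n × Fin n → ℝ => g k * corr (skCoupling n β g) k.1 k.2) :=
    (continuous_apply k).mul hcorr_c
  have hB_c : Continuous (fun g : Fin n × Fin n → ℝ =>
      β / Real.sqrt n * (1 - corr (skCoupling n β g) k.1 k.2 ^ 2)) :=
    continuous_const.mul (continuous_const.sub (hcorr_c.pow 2))
  have hA_int : Integrable (fun g : Fin n × Fin n → ℝ => g k * corr (skCoupling n β g) k.1 k.2)
      (Measure.pi (fun _ : Fin n × Fin n => gaussianReal 0 1)) := by
    have h1 : Integrable (fun g : Fin n × Fin n → ℝ => g k)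
        (Measure.pi (fun _ : Fin n × Fin n => gaussianReal 0 1)) :=
      integrable_eval ((memLp_id_gaussianReal 1).integrable (by simp))
    exact h1.mul_bdd (c := 1) hcorr_c.aestronglyMeasurable
      (Filter.Eventually.of_forall (fun g => by
        simpa [Real.norm_eq_abs] using abs_corr_le_one (skCoupling n β g) k.1 k.2))
  have hB_int : Integrable (fun g : Fin n × Fin n → ℝ =>
      β / Real.sqrt n * (1 - corr (skCoupling n β g) k.1 k.2 ^ 2))
      (Measure.pi (fun _ : Fin n × Fin n => gaussianReal 0 1)) := by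
    refine Integrable.const_mul ?_ _
    refine (integrable_const (1 : ℝ)).mono' (continuous_const.sub (hcorr_c.pow 2)).aestronglyMeasurable
      (Filter.Eventually.of_forall (fun g => ?_))
    have h0 := corr_sq_le_one (skCoupling n β g) k.1 k.2
    rw [Real.norm_eq_abs, abs_le]
    constructor <;> nlinarith [sq_nonneg (corr (skCoupling n β g) k.1 k.2)]
  have eqA := integral_map mp.measurable.aemeasurable
    (f := fun g : Fin n × Fin n → ℝ => g k * corr (skCoupling n β g) k.1 k.2)
    (by rw [mp.map_eq]; exact hA_c.aestronglyMeasurable)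
  have eqB := integral_map mp.measurable.aemeasurable
    (f := fun g : Fin n × Fin n → ℝ => β / Real.sqrt n * (1 - corr (skCoupling n β g) k.1 k.2 ^ 2))
    (by rw [mp.map_eq]; exact hB_c.aestronglyMeasurable)
  rw [mp.map_eq] at eqA eqB
  have hAU : Integrable (fun p : (Fin n × Fin n → ℝ) × ℝ =>
      Function.update p.1 k p.2 k * corr (skCoupling n β (Function.update p.1 k p.2)) k.1 k.2)
      ((Measure.pi (fun _ : Fin n × Fin n => gaussianReal 0 1)).prod (gaussianReal 0 1)) :=
    (mp.integrable_comp hA_c.aestronglyMeasurable).2 hA_int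
  have hBU : Integrable (fun p : (Fin n × Fin n → ℝ) × ℝ =>
      β / Real.sqrt n * (1 - corr (skCoupling n β (Function.update p.1 k p.2)) k.1 k.2 ^ 2))
      ((Measure.pi (fun _ : Fin n × Fin n => gaussianReal 0 1)).prod (gaussianReal 0 1)) :=
    (mp.integrable_comp hB_c.aestronglyMeasurable).2 hB_int
  rw [eqA, eqB, integral_prod _ hAU, integral_prod _ hBU]
  refine integral_congr_ae (Filter.Eventually.of_forall (fun h => ?_))
  simp only [Function.update_self]
  exact stein_corr β k h hk

end OnePair

section MaxBound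

lemma integrable_eval_mul_corr (β : ℝ) (k : Fin n × Fin n) (i j : Fin n) :
    Integrable (fun g : Fin n × Fin n → ℝ => g k * corr (skCoupling n β g) i j)
      (Measure.pi (fun _ : Fin n × Fin n => gaussianReal 0 1)) := by
  have h1 : Integrable (fun g : Fin n × Fin n → ℝ => g k)
      (Measure.pi (fun _ : Fin n × Fin n => gaussianReal 0 1)) :=
    integrable_eval ((memLp_id_gaussianReal 1).integrable (by simp))
  exact h1.mul_bdd (c := 1) (continuous_corr_sk β i j).aestronglyMeasurable
    (Filter.Eventually.of_forall (fun g => by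
      simpa [Real.norm_eq_abs] using abs_corr_le_one (skCoupling n β g) i j))

lemma integrable_corr_sq (β : ℝ) (i j : Fin n) :
    Integrable (fun g : Fin n × Fin n → ℝ => corr (skCoupling n β g) i j ^ 2)
      (Measure.pi (fun _ : Fin n × Fin n => gaussianReal 0 1)) := by
  refine (integrable_const (1 : ℝ)).mono' ((continuous_corr_sk β i j).pow 2).aestronglyMeasurable
    (Filter.Eventually.of_forall (fun g => ?_))
  have h0 := corr_sq_le_one (skCoupling n β g) i j
  rw [Real.norm_eq_abs, abs_of_nonneg (sq_nonneg _)]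
  exact h0

/-- The disorder-dependent part of the energy, `∑_{i<j} g_{ij} x_i x_j`. -/
noncomputable def rawEnergy (g : Fin n × Fin n → ℝ) (x : Fin n → Bool) : ℝ :=
  ∑ p ∈ pairs n, g p * sp p x

lemma gibbsAvg_rawEnergy (J : Fin n → Fin n → ℝ) (g : Fin n × Fin n → ℝ) :
    gibbsAvg J (rawEnergy g) = ∑ p ∈ pairs n, g p * corr J p.1 p.2 := by
  unfold gibbsAvg rawEnergy corr gibbsAvg
  simp_rw [Finset.mul_sum]
  rw [Finset.sum_comm]
  refine Finset.sum_congr rfl (fun p _ => Finset.sum_congr rfl (fun x _ => ?_))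
  unfold sp
  ring

lemma gibbsAvg_le (J : Fin n → Fin n → ℝ) (f : (Fin n → Bool) → ℝ) (M : ℝ)
    (hf : ∀ x, f x ≤ M) : gibbsAvg J f ≤ M := by
  unfold gibbsAvg
  calc ∑ x, gibbs J x * f x ≤ ∑ x, gibbs J x * M :=
        Finset.sum_le_sum (fun x _ => mul_le_mul_of_nonneg_left (hf x) (gibbs_pos J x).le)
    _ = M := by rw [← Finset.sum_mul, sum_gibbs, one_mul]

/-- The exponential sum `∑_x exp (lam * rawEnergy g x)`. -/
noncomputable def expSum (lam : ℝ) (g : Fin n × Fin n → ℝ) : ℝ :=
  ∑ x : Fin n → Bool, Real.exp (lam * rawEnergy g x)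

lemma rawEnergy_le (lam : ℝ) (hlam : 0 < lam) (g : Fin n × Fin n → ℝ) (x : Fin n → Bool)
    (a : ℝ) (ha : 0 < a) :
    rawEnergy g x ≤ (expSum lam g / a + Real.log a - 1) / lam := by
  have hS : Real.exp (lam * rawEnergy g x) ≤ expSum lam g :=
    Finset.single_le_sum (f := fun x => Real.exp (lam * rawEnergy g x))
      (fun y _ => (Real.exp_pos _).le) (Finset.mem_univ x)
  have hSpos : 0 < expSum lam g := lt_of_lt_of_le (Real.exp_pos _) hS
  have h1 : lam * rawEnergy g x ≤ Real.log (expSum lam g) := by
    rw [Real.le_log_iff_exp_le hSpos]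
    exact hS
  have h2 : Real.log (expSum lam g) ≤ expSum lam g / a + Real.log a - 1 := by
    have := Real.log_le_sub_one_of_pos (div_pos hSpos ha)
    rw [Real.log_div hSpos.ne' ha.ne'] at this
    linarith
  rw [le_div_iff₀ hlam]
  linarith

lemma exp_rawEnergy_eq_prod (lam : ℝ) (x : Fin n → Bool) (g : Fin n × Fin n → ℝ) :
    Real.exp (lam * rawEnergy g x) =
      ∏ p : Fin n × Fin n, (if p.1 < p.2 then Real.exp (lam * sp p x * g p) else 1) := by
  unfold rawEnergy pairs
  rw [Finset.mul_sum, Real.exp_sum, Finset.prod_filter]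
  refine Finset.prod_congr rfl (fun p _ => ?_)
  split_ifs
  · congr 1
    ring
  · rfl

lemma integrable_exp_rawEnergy (lam : ℝ) (x : Fin n → Bool) :
    Integrable (fun g : Fin n × Fin n → ℝ => Real.exp (lam * rawEnergy g x))
      (Measure.pi (fun _ : Fin n × Fin n => gaussianReal 0 1)) := by
  simp_rw [exp_rawEnergy_eq_prod]
  refine Integrable.fintype_prod
    (f := fun (p : Fin n × Fin n) (t : ℝ) => if p.1 < p.2 then Real.exp (lam * sp p x * t) else 1)
    (fun p => ?_)
  split_ifs
  · exact integrable_exp_mul_gaussianReal _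
  · exact integrable_const 1

lemma integral_exp_rawEnergy (lam : ℝ) (x : Fin n → Bool) :
    ∫ g, Real.exp (lam * rawEnergy g x) ∂(Measure.pi (fun _ : Fin n × Fin n => gaussianReal 0 1)) =
      Real.exp (lam ^ 2 / 2) ^ (pairs n).card := by
  simp_rw [exp_rawEnergy_eq_prod]
  have key := integral_fintype_prod_eq_prod (μ := fun _ : Fin n × Fin n => gaussianReal 0 1)
    (fun (p : Fin n × Fin n) (t : ℝ) => if p.1 < p.2 then Real.exp (lam * sp p x * t) else 1)
  rw [key]
  have hfac : ∀ p : Fin n × Fin n,
      ∫ t, (if p.1 < p.2 then Real.exp (lam * sp p x * t) else 1) ∂(gaussianReal 0 1) =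
        if p.1 < p.2 then Real.exp (lam ^ 2 / 2) else 1 := by
    intro p
    split_ifs with hp
    · have h1 := congrFun (mgf_fun_id_gaussianReal (μ := 0) (v := 1)) (lam * sp p x)
      simp only [mgf] at h1
      rw [h1]
      congr 1
      have hs := sp_mul_self p x
      have : (lam * sp p x) ^ 2 = lam ^ 2 := by
        calc (lam * sp p x) ^ 2 = lam ^ 2 * (sp p x * sp p x) := by ring
          _ = lam ^ 2 := by rw [hs, mul_one]
      rw [this]
      simp
    · simp
  simp_rw [hfac]
  rw [Finset.prod_ite, Finset.prod_const_one, mul_one, Finset.prod_const]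
  rfl

/-- First-moment bound on the Gibbs average of the disorder-dependent energy. -/
lemma avg_rawEnergy_le (β lam : ℝ) (hlam : 0 < lam) :
    ∫ g, ∑ p ∈ pairs n, g p * corr (skCoupling n β g) p.1 p.2
        ∂(Measure.pi (fun _ : Fin n × Fin n => gaussianReal 0 1)) ≤
      (n * Real.log 2 + (pairs n).card * (lam ^ 2 / 2)) / lam := by
  set a : ℝ := 2 ^ n * Real.exp (lam ^ 2 / 2) ^ (pairs n).card with ha
  have hapos : 0 < a := by positivity
  have hpt : ∀ g : Fin n × Fin n → ℝ, ∑ p ∈ pairs n, g p * corr (skCoupling n β g) p.1 p.2 ≤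
      expSum lam g * (1 / (a * lam)) + (Real.log a - 1) / lam := by
    intro g
    rw [← gibbsAvg_rawEnergy]
    refine le_trans (gibbsAvg_le _ _ _ (fun x => rawEnergy_le lam hlam g x a hapos)) (le_of_eq ?_)
    field_simp
    ring
  have hintS : Integrable (expSum (n := n) lam)
      (Measure.pi (fun _ : Fin n × Fin n => gaussianReal 0 1)) :=
    integrable_finsetSum _ (fun x _ => integrable_exp_rawEnergy lam x)
  have hSint : ∫ g, expSum lam g ∂(Measure.pi (fun _ : Fin n × Fin n => gaussianReal 0 1)) = a := by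
    unfold expSum
    rw [integral_finsetSum _ (fun x _ => integrable_exp_rawEnergy lam x)]
    simp_rw [integral_exp_rawEnergy]
    simp [ha]
  have hlhs_int : Integrable
      (fun g : Fin n × Fin n → ℝ => ∑ p ∈ pairs n, g p * corr (skCoupling n β g) p.1 p.2)
      (Measure.pi (fun _ : Fin n × Fin n => gaussianReal 0 1)) :=
    integrable_finsetSum _ (fun p _ => integrable_eval_mul_corr β p p.1 p.2)
  have hrhs_int : Integrable
      (fun g : Fin n × Fin n → ℝ => expSum lam g * (1 / (a * lam)) + (Real.log a - 1) / lam)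
      (Measure.pi (fun _ : Fin n × Fin n => gaussianReal 0 1)) :=
    (hintS.mul_const _).add (integrable_const _)
  calc ∫ g, ∑ p ∈ pairs n, g p * corr (skCoupling n β g) p.1 p.2
        ∂(Measure.pi (fun _ : Fin n × Fin n => gaussianReal 0 1))
      ≤ ∫ g, (expSum lam g * (1 / (a * lam)) + (Real.log a - 1) / lam)
        ∂(Measure.pi (fun _ : Fin n × Fin n => gaussianReal 0 1)) :=
        integral_mono hlhs_int hrhs_int hpt
    _ = a * (1 / (a * lam)) + (Real.log a - 1) / lam := by
        rw [integral_add (hintS.mul_const _) (integrable_const _), integral_mul_const, hSint,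
          integral_const]
        simp
    _ = (n * Real.log 2 + (pairs n).card * (lam ^ 2 / 2)) / lam := by
        have hloga : Real.log a = n * Real.log 2 + (pairs n).card * (lam ^ 2 / 2) := by
          rw [ha, Real.log_mul (by positivity) (by positivity), Real.log_pow, Real.log_pow,
            Real.log_exp]
        rw [hloga]
        field_simp
        ring

end MaxBound

section Main

lemma integrable_sum_corr_sq (β : ℝ) :
    Integrable (fun g : Fin n × Fin n → ℝ => (∑ i, ∑ j, corr (skCoupling n β g) i j ^ 2) / n)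
      (Measure.pi (fun _ : Fin n × Fin n => gaussianReal 0 1)) :=
  (integrable_finsetSum _ (fun i _ => integrable_finsetSum _
    (fun j _ => integrable_corr_sq β i j))).div_const _

lemma continuous_sum_corr_sq (β : ℝ) :
    Continuous (fun g : Fin n × Fin n → ℝ => (∑ i, ∑ j, corr (skCoupling n β g) i j ^ 2) / n) :=
  (continuous_finsetSum _ (fun i _ => continuous_finsetSum _
    (fun j _ => (continuous_corr_sk β i j).pow 2))).div_const _

/-- Lower bound on the disorder average of `(1/n) ∑_{i,j} ⟨x_i x_j⟩^2`. -/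
theorem sk_sum_corr_sq_lower (β : ℝ) (hβ : 0 < β) (hn : 1 ≤ n) :
    (n : ℝ) * (1 - 2 * Real.sqrt (Real.log 2) / β) ≤
      ∫ g, (∑ i, ∑ j, corr (skCoupling n β g) i j ^ 2) / n
        ∂(Measure.pi (fun _ : Fin n × Fin n => gaussianReal 0 1)) := by
  have hn0 : (0 : ℝ) < n := by exact_mod_cast hn
  set r := Real.sqrt n with hr
  have hr0 : 0 < r := Real.sqrt_pos.2 hn0
  have hr2 : r * r = n := Real.mul_self_sqrt hn0.le
  have hlog2 : 0 < Real.log 2 := Real.log_pos (by norm_num)
  set L := Real.sqrt (Real.log 2) with hL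
  have hL0 : 0 < L := Real.sqrt_pos.2 hlog2
  have hL2 : L * L = Real.log 2 := Real.mul_self_sqrt hlog2.le
  have hlam0 : 0 < 2 * L / r := by positivity
  set m : ℝ := ((pairs n).card : ℝ) with hm
  have hcard : 2 * m + n = n * n := card_pairs
  set Q := ∑ p ∈ pairs n, ∫ g, corr (skCoupling n β g) p.1 p.2 ^ 2
    ∂(Measure.pi (fun _ : Fin n × Fin n => gaussianReal 0 1)) with hQ
  -- integration by parts, summed over the pairs
  have hibp : ∫ g, ∑ p ∈ pairs n, g p * corr (skCoupling n β g) p.1 p.2
      ∂(Measure.pi (fun _ : Fin n × Fin n => gaussianReal 0 1)) = β / r * (m - Q) := by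
    rw [integral_finsetSum _ (fun p _ => integrable_eval_mul_corr β p p.1 p.2)]
    have hp : ∀ p ∈ pairs n, ∫ g, g p * corr (skCoupling n β g) p.1 p.2
        ∂(Measure.pi (fun _ : Fin n × Fin n => gaussianReal 0 1)) =
        β / r * (1 - ∫ g, corr (skCoupling n β g) p.1 p.2 ^ 2
          ∂(Measure.pi (fun _ : Fin n × Fin n => gaussianReal 0 1))) := by
      intro p hp
      rw [ibp_pair β p hp, integral_const_mul,
        integral_sub (integrable_const _) (integrable_corr_sq β p.1 p.2), integral_const]
      simp [hr]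
    rw [Finset.sum_congr rfl hp, ← Finset.mul_sum, Finset.sum_sub_distrib]
    simp [hm, hQ]
  have hmax := avg_rawEnergy_le (n := n) β (2 * L / r) hlam0
  rw [hibp] at hmax
  -- the integral of the normalised sum of squared correlations
  have hF : ∫ g, (∑ i, ∑ j, corr (skCoupling n β g) i j ^ 2) / n
      ∂(Measure.pi (fun _ : Fin n × Fin n => gaussianReal 0 1)) = (n + 2 * Q) / n := by
    simp_rw [sum_corr_sq]
    rw [integral_div, integral_add (integrable_const _)
      ((integrable_finsetSum _ (fun p _ => integrable_corr_sq β p.1 p.2)).const_mul 2),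
      integral_const, integral_const_mul,
      integral_finsetSum _ (fun p _ => integrable_corr_sq β p.1 p.2)]
    simp [hQ]
  rw [hF]
  -- arithmetic
  have e1 : (n * Real.log 2 + m * ((2 * L / r) ^ 2 / 2)) / (2 * L / r) =
      n * L * r / 2 + m * L / r := by
    rw [← hL2]
    field_simp
  have e2 : m * L / r ≤ n * L * r / 2 := by
    rw [div_le_iff₀ hr0]
    have hm_le : m ≤ n * n / 2 := by linarith
    have : n * L * r / 2 * r = n * n / 2 * L := by
      rw [← hr2]
      ring
    rw [this]
    exact mul_le_mul_of_nonneg_right hm_le hL0.le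
  have e3 : β / r * (m - Q) ≤ n * L * r := by
    rw [e1] at hmax
    linarith
  have e4 : m - Q ≤ n * n * L / β := by
    have h1 : β / r * (m - Q) * (r / β) ≤ n * L * r * (r / β) :=
      mul_le_mul_of_nonneg_right e3 (by positivity)
    have h2 : β / r * (m - Q) * (r / β) = m - Q := by
      field_simp
    have h3 : n * L * r * (r / β) = n * n * L / β := by
      rw [← hr2]
      field_simp
    linarith
  rw [le_div_iff₀ hn0]
  have h5 : (n : ℝ) * (1 - 2 * L / β) * n = n * n - 2 * (n * n * L / β) := by
    field_simp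
  rw [h5]
  linarith

/-- **Main theorem.** Expected relaxation time of the SK Glauber dynamics. -/
theorem sk_relaxTime_lower (β : ℝ) (hβ : 0 < β) (hn : 1 ≤ n) :
    ENNReal.ofReal (n * (1 - 2 * Real.sqrt (Real.log 2) / β)) ≤
      ∫⁻ g, relaxTime (skCoupling n β g)
        ∂(Measure.pi (fun _ : Fin n × Fin n => gaussianReal 0 1)) := by
  calc ENNReal.ofReal (n * (1 - 2 * Real.sqrt (Real.log 2) / β))
      ≤ ENNReal.ofReal (∫ g, (∑ i, ∑ j, corr (skCoupling n β g) i j ^ 2) / n
          ∂(Measure.pi (fun _ : Fin n × Fin n => gaussianReal 0 1))) :=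
        ENNReal.ofReal_le_ofReal (sk_sum_corr_sq_lower β hβ hn)
    _ = ∫⁻ g, ENNReal.ofReal ((∑ i, ∑ j, corr (skCoupling n β g) i j ^ 2) / n)
          ∂(Measure.pi (fun _ : Fin n × Fin n => gaussianReal 0 1)) :=
        ofReal_integral_eq_lintegral_ofReal (integrable_sum_corr_sq β)
          (Filter.Eventually.of_forall (fun g => by positivity))
    _ ≤ ∫⁻ g, relaxTime (skCoupling n β g)
          ∂(Measure.pi (fun _ : Fin n × Fin n => gaussianReal 0 1)) :=
        lintegral_mono (fun g => corr_sq_le_relaxTime _)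

end Main

section Prob

lemma sum_corr_sq_div_le (J : Fin n → Fin n → ℝ) (hn : 1 ≤ n) :
    (∑ i, ∑ j, corr J i j ^ 2) / n ≤ n := by
  have hn0 : (0 : ℝ) < n := by exact_mod_cast hn
  rw [div_le_iff₀ hn0]
  calc ∑ i, ∑ j, corr J i j ^ 2 ≤ ∑ _i : Fin n, ∑ _j : Fin n, (1 : ℝ) :=
        Finset.sum_le_sum (fun i _ => Finset.sum_le_sum (fun j _ => corr_sq_le_one J i j))
    _ = n * n := by simp

/-- With probability bounded below, the relaxation time of the SK Glauber dynamics is at least
linear in `n`. -/
theorem sk_relaxTime_prob (β : ℝ) (hβ : 0 < β) (hn : 1 ≤ n) :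
    ENNReal.ofReal ((1 - 2 * Real.sqrt (Real.log 2) / β) / 2) ≤
      (Measure.pi (fun _ : Fin n × Fin n => gaussianReal 0 1))
        {g | ENNReal.ofReal (n * (1 - 2 * Real.sqrt (Real.log 2) / β) / 2) ≤
          relaxTime (skCoupling n β g)} := by
  set δ : ℝ := 1 - 2 * Real.sqrt (Real.log 2) / β with hδ
  rcases le_or_gt δ 0 with hδ0 | hδ0
  · rw [ENNReal.ofReal_of_nonpos (by linarith)]
    exact bot_le
  have hn0 : (0 : ℝ) < n := by exact_mod_cast hn
  set P := Measure.pi (fun _ : Fin n × Fin n => gaussianReal 0 1) with hP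
  set Y : (Fin n × Fin n → ℝ) → ℝ :=
    fun g => (∑ i, ∑ j, corr (skCoupling n β g) i j ^ 2) / n with hY
  set S : Set (Fin n × Fin n → ℝ) := {g | n * δ / 2 ≤ Y g} with hS
  have hYc : Continuous Y := continuous_sum_corr_sq β
  have hSm : MeasurableSet S := (isClosed_le continuous_const hYc).measurableSet
  have hsub : S ⊆ {g | ENNReal.ofReal (n * δ / 2) ≤ relaxTime (skCoupling n β g)} := by
    intro g hg
    exact le_trans (ENNReal.ofReal_le_ofReal hg) (corr_sq_le_relaxTime _)
  refine le_trans ?_ (measure_mono hsub)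
  have hpt : ∀ g, Y g ≤ n * δ / 2 + n * S.indicator (fun _ => (1 : ℝ)) g := by
    intro g
    by_cases hg : g ∈ S
    · rw [Set.indicator_of_mem hg]
      have := sum_corr_sq_div_le (skCoupling n β g) hn
      have h2 : 0 ≤ (n : ℝ) * δ / 2 := by positivity
      simp only [hY]
      linarith
    · rw [Set.indicator_of_notMem hg]
      have : Y g < n * δ / 2 := not_le.1 hg
      linarith
  have hYint : Integrable Y P := integrable_sum_corr_sq β
  have hind : Integrable (S.indicator (fun _ => (1 : ℝ))) P :=
    (integrable_const (1 : ℝ)).indicator hSm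
  have hint2 : Integrable (fun g => n * δ / 2 + n * S.indicator (fun _ => (1 : ℝ)) g) P :=
    (integrable_const _).add (hind.const_mul _)
  have h1 : (n : ℝ) * δ ≤ ∫ g, Y g ∂P := sk_sum_corr_sq_lower β hβ hn
  have h2 : ∫ g, Y g ∂P ≤ ∫ g, (n * δ / 2 + n * S.indicator (fun _ => (1 : ℝ)) g) ∂P :=
    integral_mono hYint hint2 hpt
  have h3 : ∫ g, (n * δ / 2 + n * S.indicator (fun _ => (1 : ℝ)) g) ∂P =
      n * δ / 2 + n * (P S).toReal := by
    rw [integral_add (integrable_const _) (hind.const_mul _), integral_const, integral_const_mul,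
      integral_indicator hSm, setIntegral_const]
    simp [Measure.real]
  have h4 : δ / 2 ≤ (P S).toReal := by
    have : (n : ℝ) * (δ / 2) ≤ n * (P S).toReal := by linarith
    exact le_of_mul_le_mul_left this hn0
  exact (ENNReal.ofReal_le_iff_le_toReal (measure_ne_top P S)).2 h4

end Prob

end Vale.Agent.Lib.P150
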