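import Vale.Agent.Lib.P150.SK
import Vale.Agent.Lib.P150.Mixing

/-!
# Relaxation and mixing times of SK Glauber dynamics are linear in `n` with positive probability
-/

namespace Vale.Agent.Lib.P150

open MeasureTheory ProbabilityTheory Finset

variable {n : ℕ}

/-- For every coupling matrix, the mixing time is at least `log 2 / n` times the sum of the
squared two-point correlations. -/
theorem corr_sq_le_mixingTime (J : Fin n → Fin n → ℝ) :
    ENNReal.ofReal (Real.log 2 * ((∑ i, ∑ j, corr J i j ^ 2) / n)) ≤ mixingTime J := by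
  have hlog : 0 < Real.log 2 := Real.log_pos (by norm_num)
  rw [ENNReal.ofReal_mul hlog.le]
  exact le_trans (mul_le_mul_right (corr_sq_le_relaxTime J) _)
    (log_two_mul_relaxTime_le_mixingTime J)

/-- The squared correlations of the SK model are large with positive probability. -/
theorem sk_corr_prob (β : ℝ) (hβ : 0 < β) (hn : 1 ≤ n) (a : ℝ) (ha : a < 1) :
    ENNReal.ofReal ((1 - 2 * Real.sqrt (Real.log 2) / β - a) / (1 - a)) ≤
      (Measure.pi (fun _ : Fin n × Fin n => gaussianReal 0 1))
        {g | a * n ≤ (∑ i, ∑ j, corr (skCoupling n β g) i j ^ 2) / n} := by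
  set δ : ℝ := 1 - 2 * Real.sqrt (Real.log 2) / β with hδ
  have hn0 : (0 : ℝ) < n := by exact_mod_cast hn
  have ha1 : 0 < 1 - a := by linarith
  set P := Measure.pi (fun _ : Fin n × Fin n => gaussianReal 0 1) with hP
  set Y : (Fin n × Fin n → ℝ) → ℝ :=
    fun g => (∑ i, ∑ j, corr (skCoupling n β g) i j ^ 2) / n with hY
  set S : Set (Fin n × Fin n → ℝ) := {g | a * n ≤ Y g} with hS
  have hYc : Continuous Y := continuous_sum_corr_sq β
  have hSm : MeasurableSet S := (isClosed_le continuous_const hYc).measurableSet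
  have hpt : ∀ g, Y g ≤ a * n + (1 - a) * n * S.indicator (fun _ => (1 : ℝ)) g := by
    intro g
    by_cases hg : g ∈ S
    · rw [Set.indicator_of_mem hg]
      have := sum_corr_sq_div_le (skCoupling n β g) hn
      simp only [hY]
      linarith
    · rw [Set.indicator_of_notMem hg]
      have : Y g < a * n := not_le.1 hg
      linarith
  have hYint : Integrable Y P := integrable_sum_corr_sq β
  have hind : Integrable (S.indicator (fun _ => (1 : ℝ))) P :=
    (integrable_const (1 : ℝ)).indicator hSm
  have hint2 : Integrable (fun g => a * n + (1 - a) * n * S.indicator (fun _ => (1 : ℝ)) g) P :=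
    (integrable_const _).add (hind.const_mul _)
  have h1 : (n : ℝ) * δ ≤ ∫ g, Y g ∂P := sk_sum_corr_sq_lower β hβ hn
  have h2 : ∫ g, Y g ∂P ≤ ∫ g, (a * n + (1 - a) * n * S.indicator (fun _ => (1 : ℝ)) g) ∂P :=
    integral_mono hYint hint2 hpt
  have h3 : ∫ g, (a * n + (1 - a) * n * S.indicator (fun _ => (1 : ℝ)) g) ∂P =
      a * n + (1 - a) * n * (P S).toReal := by
    rw [integral_add (integrable_const _) (hind.const_mul _), integral_const, integral_const_mul,
      integral_indicator hSm, setIntegral_const]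
    simp [Measure.real]
  have h4 : (δ - a) / (1 - a) ≤ (P S).toReal := by
    rw [div_le_iff₀ ha1]
    have h5 : (n : ℝ) * (δ - a) ≤ n * ((P S).toReal * (1 - a)) := by linarith
    exact le_of_mul_le_mul_left h5 hn0
  exact (ENNReal.ofReal_le_iff_le_toReal (measure_ne_top P S)).2 h4

/-- **Relaxation and mixing of SK Glauber dynamics.** With probability at least
`(δ - a) / (1 - a)`, where `δ = 1 - 2 √(log 2) / β`, the relaxation time is at least `a n` and
the mixing time is at least `log 2 * a n`. -/
theorem sk_relax_mix_prob (β : ℝ) (hβ : 0 < β) (hn : 1 ≤ n) (a : ℝ) (ha : a < 1) :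
    ENNReal.ofReal ((1 - 2 * Real.sqrt (Real.log 2) / β - a) / (1 - a)) ≤
      (Measure.pi (fun _ : Fin n × Fin n => gaussianReal 0 1))
        {g | ENNReal.ofReal (a * n) ≤ relaxTime (skCoupling n β g) ∧
          ENNReal.ofReal (Real.log 2 * (a * n)) ≤ mixingTime (skCoupling n β g)} := by
  refine le_trans (sk_corr_prob β hβ hn a ha) (measure_mono ?_)
  intro g hg
  have hlog : 0 < Real.log 2 := Real.log_pos (by norm_num)
  refine ⟨le_trans (ENNReal.ofReal_le_ofReal hg) (corr_sq_le_relaxTime _), ?_⟩
  exact le_trans (ENNReal.ofReal_le_ofReal (mul_le_mul_of_nonneg_left hg hlog.le))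
    (corr_sq_le_mixingTime _)

/-- Expected mixing time of the SK Glauber dynamics. -/
theorem sk_mixingTime_lower (β : ℝ) (hβ : 0 < β) (hn : 1 ≤ n) :
    ENNReal.ofReal (Real.log 2 * (n * (1 - 2 * Real.sqrt (Real.log 2) / β))) ≤
      ∫⁻ g, mixingTime (skCoupling n β g)
        ∂(Measure.pi (fun _ : Fin n × Fin n => gaussianReal 0 1)) := by
  have hlog : 0 < Real.log 2 := Real.log_pos (by norm_num)
  calc ENNReal.ofReal (Real.log 2 * (n * (1 - 2 * Real.sqrt (Real.log 2) / β)))
      = ENNReal.ofReal (Real.log 2) *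
          ENNReal.ofReal (n * (1 - 2 * Real.sqrt (Real.log 2) / β)) :=
        ENNReal.ofReal_mul hlog.le
    _ ≤ ENNReal.ofReal (Real.log 2) * ∫⁻ g, relaxTime (skCoupling n β g)
          ∂(Measure.pi (fun _ : Fin n × Fin n => gaussianReal 0 1)) :=
        mul_le_mul_right (sk_relaxTime_lower β hβ hn) _
    _ = ∫⁻ g, ENNReal.ofReal (Real.log 2) * relaxTime (skCoupling n β g)
          ∂(Measure.pi (fun _ : Fin n × Fin n => gaussianReal 0 1)) :=
        (lintegral_const_mul' _ _ ENNReal.ofReal_ne_top).symm
    _ ≤ ∫⁻ g, mixingTime (skCoupling n β g)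
          ∂(Measure.pi (fun _ : Fin n × Fin n => gaussianReal 0 1)) :=
        lintegral_mono (fun g => log_two_mul_relaxTime_le_mixingTime _)

end Vale.Agent.Lib.P150
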